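import Mathlib

namespace Vale.Agent.P069

open Filter Topology

/-- A sequence of operators giving square sum decompositions and converging to the identity. -/
structure L2Dec {E : Type} [NormedAddCommGroup E] [NormedSpace ℝ E] (P : ℕ → E →L[ℝ] E) :
    Prop where
  upper : ∀ n u v, ‖P n u + (v - P n v)‖ ^ 2 ≤ ‖u‖ ^ 2 + ‖v‖ ^ 2
  lower : ∀ n u, ‖P n u‖ ^ 2 + ‖u - P n u‖ ^ 2 ≤ ‖u‖ ^ 2
  conv : ∀ u, Tendsto (fun n => P n u) atTop (𝓝 u)

variable {E : Type} [NormedAddCommGroup E] [NormedSpace ℝ E]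

/-- The adjoint operator on the dual. -/
noncomputable def adj (P : E →L[ℝ] E) : StrongDual ℝ E →L[ℝ] StrongDual ℝ E :=
  (ContinuousLinearMap.compL ℝ E E ℝ).flip P

@[simp] theorem adj_apply (P : E →L[ℝ] E) (f : StrongDual ℝ E) (u : E) : adj P f u = f (P u) := rfl

theorem normSq_dual_le (f : StrongDual ℝ E) {c : ℝ} (h : ∀ u, ‖u‖ ≤ 1 → f u ^ 2 ≤ c) :
    ‖f‖ ^ 2 ≤ c := by
  have hc : 0 ≤ c := (sq_nonneg _).trans (h 0 (by simp))
  refine (Real.le_sqrt (norm_nonneg _) hc).1 ?_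
  refine ContinuousLinearMap.opNorm_le_of_unit_norm (Real.sqrt_nonneg c) fun u hu => ?_
  rw [Real.norm_eq_abs]
  exact Real.abs_le_sqrt (h u hu.le)

theorem exists_norming (f : StrongDual ℝ E) {r : ℝ} (hr : r < ‖f‖) :
    ∃ u, ‖u‖ ≤ 1 ∧ r < f u := by
  obtain ⟨u, hu, h⟩ := f.exists_lt_apply_of_lt_opNorm hr
  rcases le_total 0 (f u) with h0 | h0
  · exact ⟨u, hu.le, by rwa [Real.norm_eq_abs, abs_of_nonneg h0] at h⟩
  · refine ⟨-u, by simpa using hu.le, ?_⟩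
    rw [Real.norm_eq_abs, abs_of_nonpos h0] at h
    simpa using h

theorem L2Dec.dual {P : ℕ → E →L[ℝ] E} (h : L2Dec P) : L2Dec fun n => adj (P n) := by
  have hlower : ∀ n (f : StrongDual ℝ E),
      ‖adj (P n) f‖ ^ 2 + ‖f - adj (P n) f‖ ^ 2 ≤ ‖f‖ ^ 2 := by
    intro n f
    have key : ∀ u, ‖u‖ ≤ 1 → ∀ v, ‖v‖ ≤ 1 →
        (adj (P n) f u) ^ 2 + ((f - adj (P n) f) v) ^ 2 ≤ ‖f‖ ^ 2 := by
      intro u hu v hv
      set α := adj (P n) f u with hα
      set β := (f - adj (P n) f) v with hβ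
      have e : f (P n (α • u) + (β • v - P n (β • v))) = α ^ 2 + β ^ 2 := by
        have e1 : f (P n u) = α := rfl
        have e2 : f v - f (P n v) = β := rfl
        simp only [map_add, map_sub, map_smul, smul_eq_mul]
        rw [e1, ← mul_sub, e2]; ring
      have h1 := h.upper n (α • u) (β • v)
      have h2 : ‖α • u‖ ^ 2 ≤ α ^ 2 := by
        rw [norm_smul, mul_pow, Real.norm_eq_abs, sq_abs]
        exact mul_le_of_le_one_right (sq_nonneg _) (pow_le_one₀ (norm_nonneg _) hu)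
      have h3 : ‖β • v‖ ^ 2 ≤ β ^ 2 := by
        rw [norm_smul, mul_pow, Real.norm_eq_abs, sq_abs]
        exact mul_le_of_le_one_right (sq_nonneg _) (pow_le_one₀ (norm_nonneg _) hv)
      have h4 := f.le_opNorm (P n (α • u) + (β • v - P n (β • v)))
      rw [e, Real.norm_eq_abs, abs_of_nonneg (by positivity)] at h4
      have h5 := pow_le_pow_left₀ (by positivity) h4 2
      rw [mul_pow] at h5
      have h6 : (α ^ 2 + β ^ 2) ^ 2 ≤ ‖f‖ ^ 2 * (α ^ 2 + β ^ 2) :=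
        h5.trans (mul_le_mul_of_nonneg_left (by linarith) (sq_nonneg _))
      rcases (show 0 ≤ α ^ 2 + β ^ 2 by positivity).eq_or_lt with h0 | h0
      · rw [← h0]; positivity
      · nlinarith
    have h1 : ∀ v, ‖v‖ ≤ 1 → ((f - adj (P n) f) v) ^ 2 ≤ ‖f‖ ^ 2 - ‖adj (P n) f‖ ^ 2 := by
      intro v hv
      have := normSq_dual_le (adj (P n) f) (c := ‖f‖ ^ 2 - ((f - adj (P n) f) v) ^ 2)
        fun u hu => by have := key u hu v hv; linarith
      linarith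
    have := normSq_dual_le _ h1
    linarith
  refine ⟨fun n f g => normSq_dual_le _ fun u hu => ?_, hlower, fun f => ?_⟩
  · have e : (adj (P n) f + (g - adj (P n) g)) u = f (P n u) + g (u - P n u) := by
      simp
    rw [e]
    have h1 := f.le_opNorm (P n u)
    have h2 := g.le_opNorm (u - P n u)
    have h3 := h.lower n u
    have h4 : ‖u‖ ^ 2 ≤ 1 := pow_le_one₀ (norm_nonneg _) hu
    have h5 : |f (P n u) + g (u - P n u)| ≤ ‖f‖ * ‖P n u‖ + ‖g‖ * ‖u - P n u‖ :=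
      (abs_add_le _ _).trans (add_le_add h1 h2)
    have h6 := pow_le_pow_left₀ (abs_nonneg _) h5 2
    rw [sq_abs] at h6
    have h7 : (‖f‖ * ‖P n u‖ + ‖g‖ * ‖u - P n u‖) ^ 2 ≤
        (‖f‖ ^ 2 + ‖g‖ ^ 2) * (‖P n u‖ ^ 2 + ‖u - P n u‖ ^ 2) := by
      nlinarith [sq_nonneg (‖f‖ * ‖u - P n u‖ - ‖g‖ * ‖P n u‖)]
    have h8 : (‖f‖ ^ 2 + ‖g‖ ^ 2) * (‖P n u‖ ^ 2 + ‖u - P n u‖ ^ 2) ≤ (‖f‖ ^ 2 + ‖g‖ ^ 2) * 1 :=
      mul_le_mul_of_nonneg_left (by linarith) (by positivity)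
    linarith
  · rw [Metric.tendsto_atTop]
    intro ε hε
    have hcont : Tendsto (fun r : ℝ => ‖f‖ ^ 2 - r ^ 2) (𝓝[<] ‖f‖) (𝓝 0) := by
      have : Tendsto (fun r : ℝ => ‖f‖ ^ 2 - r ^ 2) (𝓝 ‖f‖) (𝓝 (‖f‖ ^ 2 - ‖f‖ ^ 2)) :=
        ((continuous_const.sub (continuous_pow 2)).tendsto _)
      rw [sub_self] at this
      exact this.mono_left nhdsWithin_le_nhds
    rcases (norm_nonneg f).eq_or_lt with h0 | h0
    · have : f = 0 := norm_eq_zero.1 h0.symm
      subst this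
      exact ⟨0, fun n _ => by simpa using hε⟩
    have hev1 := hcont.eventually (gt_mem_nhds (pow_pos hε 2))
    have hev2 : ∀ᶠ r in 𝓝[<] ‖f‖, 0 < r := nhdsWithin_le_nhds (lt_mem_nhds h0)
    have hev3 : ∀ᶠ r in 𝓝[<] ‖f‖, r < ‖f‖ := self_mem_nhdsWithin
    obtain ⟨r, hr1, hr2, hr3⟩ := (hev1.and (hev2.and hev3)).exists
    obtain ⟨u, hu, hfu⟩ := exists_norming f hr3
    have ht : Tendsto (fun n => f (P n u)) atTop (𝓝 (f u)) := (f.continuous.tendsto u).comp (h.conv u)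
    obtain ⟨N, hN⟩ := eventually_atTop.1 (ht.eventually (lt_mem_nhds hfu))
    refine ⟨N, fun n hn => ?_⟩
    have h1 : r ≤ ‖adj (P n) f‖ := by
      have h2 := (adj (P n) f).le_opNorm u
      have h3 : ‖adj (P n) f‖ * ‖u‖ ≤ ‖adj (P n) f‖ := mul_le_of_le_one_right (norm_nonneg _) hu
      have h4 : f (P n u) ≤ ‖adj (P n) f u‖ := le_abs_self _
      have := hN n hn
      linarith
    have h2 := hlower n f
    have h3 := pow_le_pow_left₀ hr2.le h1 2
    rw [dist_comm, dist_eq_norm]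
    exact lt_of_pow_lt_pow_left₀ 2 hε.le (by linarith)

theorem exists_tail {T : Type} (c : T → ℝ) {M : ℝ} (h : ∀ A : Finset T, ∑ q ∈ A, c q ^ 2 ≤ M)
    {ε : ℝ} (hε : 0 < ε) : ∃ A : Finset T, ∀ A' : Finset T, Disjoint A' A → ∑ q ∈ A', c q ^ 2 ≤ ε := by
  have hs : Summable fun q => c q ^ 2 := summable_of_sum_le (fun q => sq_nonneg _) h
  obtain ⟨A, hA⟩ := summable_iff_vanishing_norm.1 hs ε hε
  exact ⟨A, fun A' hA' => (le_abs_self _).trans (hA A' hA').le⟩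

/-- Weakly null sequences approach closed subspaces of finite codimension. -/
theorem exists_near {X : Type} [NormedAddCommGroup X] [NormedSpace ℝ X] (F : Submodule ℝ X)
    (hF : IsClosed (F : Set X)) [FiniteDimensional ℝ (X ⧸ F)] (e : ℕ → X)
    (he : ∀ f : StrongDual ℝ X, Tendsto (fun m => f (e m)) atTop (𝓝 0)) {η : ℝ} (hη : 0 < η) :
    ∃ m, ∃ y ∈ F, ‖e m - y‖ < η := by
  let b := Module.finBasis ℝ (X ⧸ F)
  have h1 : ∀ i, Tendsto (fun m => b.coord i (F.mkQ (e m))) atTop (𝓝 0) := fun i =>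
    he ((LinearMap.toContinuousLinearMap (b.coord i)).comp F.mkQL)
  have h2 : Tendsto (fun m => F.mkQ (e m)) atTop (𝓝 0) := by
    have : Tendsto (fun m => ∑ i, b.coord i (F.mkQ (e m)) • b i) atTop (𝓝 (∑ i, (0 : ℝ) • b i)) :=
      tendsto_finsetSum _ fun i _ => (h1 i).smul_const _
    simp only [zero_smul, Finset.sum_const_zero] at this
    refine this.congr fun m => ?_
    simp only [Module.Basis.coord_apply]
    exact b.sum_repr _
  have h3 := h2.norm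
  rw [norm_zero] at h3
  obtain ⟨m, hm⟩ := (h3.eventually (gt_mem_nhds (half_pos hη))).exists
  obtain ⟨z, hz1, hz2⟩ := Submodule.Quotient.norm_mk_lt (F.mkQ (e m)) (half_pos hη)
  refine ⟨m, e m - z, ?_, ?_⟩
  · rw [← Submodule.Quotient.eq]
    exact hz1.symm
  · rw [sub_sub_cancel]; linarith

end Vale.Agent.P069
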