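import Mathlib

namespace Vale.Agent.P069

open Finset

/-- A forest in which the tree number `n` has height at most `n`. -/
class Forest (T : Type) [PartialOrder T] [LocallyFiniteOrderBot T] where
  chain : ∀ {a b c : T}, a ≤ c → b ≤ c → a ≤ b ∨ b ≤ a
  lev : T → ℕ
  lev_eq : ∀ {a b : T}, a ≤ b → lev a = lev b
  card_le : ∀ a : T, (Finset.Iic a).card ≤ lev a + 1

section Seg

variable {T : Type} [PartialOrder T]

/-- A segment: a finite order convex chain. -/
def IsSeg (S : Finset T) : Prop :=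
  (∀ p ∈ S, ∀ q ∈ S, p ≤ q ∨ q ≤ p) ∧ ∀ p ∈ S, ∀ q ∈ S, ∀ r, p ≤ r → r ≤ q → r ∈ S

/-- An admissible family: pairwise disjoint segments. -/
def Adm (F : Finset (Finset T)) : Prop :=
  (∀ S ∈ F, IsSeg S) ∧ ∀ S ∈ F, ∀ S' ∈ F, S ≠ S' → Disjoint S S'

theorem isSeg_empty : IsSeg (∅ : Finset T) := ⟨by simp, by simp⟩

theorem isSeg_singleton (q : T) : IsSeg ({q} : Finset T) :=
  ⟨by simp, by
    intro p hp p' hp' r h1 h2
    rw [mem_singleton] at *
    subst hp hp'
    exact le_antisymm h2 h1⟩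

theorem adm_empty : Adm (∅ : Finset (Finset T)) := ⟨by simp, by simp⟩

/-- A predicate that is order convex. -/
def Cvx (B : T → Prop) : Prop := ∀ p q r, B p → B q → p ≤ r → r ≤ q → B r

theorem IsSeg.filter {S : Finset T} (hS : IsSeg S) {B : T → Prop} [DecidablePred B]
    (hB : Cvx B) : IsSeg (S.filter B) := by
  refine ⟨fun p hp q hq => hS.1 p (mem_filter.1 hp).1 q (mem_filter.1 hq).1,
    fun p hp q hq r h1 h2 => ?_⟩
  rw [mem_filter] at *
  exact ⟨hS.2 p hp.1 q hq.1 r h1 h2, hB p q r hp.2 hq.2 h1 h2⟩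

theorem cvx_of_lower {B : T → Prop} (hB : ∀ a b, a ≤ b → B b → B a) : Cvx B :=
  fun _ q r _ hq _ h2 => hB r q h2 hq

theorem cvx_not_of_lower {B : T → Prop} (hB : ∀ a b, a ≤ b → B b → B a) : Cvx (fun a => ¬ B a) :=
  fun p _ r hp _ h1 _ hr => hp (hB p r h1 hr)

theorem exists_top {S : Finset T} (hS : ∀ p ∈ S, ∀ q ∈ S, p ≤ q ∨ q ≤ p) (hne : S.Nonempty) :
    ∃ m ∈ S, ∀ r ∈ S, r ≤ m := by
  obtain ⟨m, hm⟩ := S.exists_maximal hne
  refine ⟨m, hm.1, fun r hr => ?_⟩
  rcases hS r hr m hm.1 with h | h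
  · exact h
  · exact hm.2 hr h

theorem exists_bot {S : Finset T} (hS : ∀ p ∈ S, ∀ q ∈ S, p ≤ q ∨ q ≤ p) (hne : S.Nonempty) :
    ∃ m ∈ S, ∀ r ∈ S, m ≤ r := by
  obtain ⟨m, hm⟩ := S.exists_minimal hne
  refine ⟨m, hm.1, fun r hr => ?_⟩
  rcases hS r hr m hm.1 with h | h
  · exact hm.2 hr h
  · exact h

end Seg

/-- Finitely supported functions, to be given the James tree norm. -/
def JT (T : Type) : Type := T →₀ ℝ

namespace JT

variable {T : Type}

noncomputable instance : AddCommGroup (JT T) := inferInstanceAs (AddCommGroup (T →₀ ℝ))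
noncomputable instance : Module ℝ (JT T) := inferInstanceAs (Module ℝ (T →₀ ℝ))

/-- The underlying finitely supported function. -/
def fs (u : JT T) : T →₀ ℝ := u

/-- The element given by a finitely supported function. -/
def mk (u : T →₀ ℝ) : JT T := u

/-- The value at a node. -/
def val (u : JT T) (q : T) : ℝ := u.fs q

@[simp] theorem val_mk (u : T →₀ ℝ) (q : T) : (mk u).val q = u q := rfl
@[simp] theorem val_add (u v : JT T) (q : T) : (u + v).val q = u.val q + v.val q := rfl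
@[simp] theorem val_sub (u v : JT T) (q : T) : (u - v).val q = u.val q - v.val q :=
  Finsupp.sub_apply u.fs v.fs q
@[simp] theorem val_neg (u : JT T) (q : T) : (-u).val q = - u.val q := rfl
@[simp] theorem val_zero (q : T) : (0 : JT T).val q = 0 := rfl
@[simp] theorem val_smul (c : ℝ) (u : JT T) (q : T) : (c • u).val q = c * u.val q := rfl

theorem ext' {u v : JT T} (h : ∀ q, u.val q = v.val q) : u = v := Finsupp.ext h

theorem val_sum {ι : Type} (s : Finset ι) (f : ι → JT T) (q : T) :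
    (∑ i ∈ s, f i).val q = ∑ i ∈ s, (f i).val q := by
  classical
  induction s using Finset.induction_on with
  | empty => simp
  | insert a s ha ih => rw [sum_insert ha, sum_insert ha, val_add, ih]

/-- The support. -/
def supp (u : JT T) : Finset T := u.fs.support

theorem mem_supp {u : JT T} {q : T} : q ∈ u.supp ↔ u.val q ≠ 0 := Finsupp.mem_support_iff

theorem val_eq_zero {u : JT T} {q : T} (h : q ∉ u.supp) : u.val q = 0 := by
  by_contra h'; exact h (mem_supp.2 h')

/-- The sum of squares of the sums over the members of a family. -/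
noncomputable def sq (u : JT T) (F : Finset (Finset T)) : ℝ := ∑ S ∈ F, (∑ r ∈ S, u.val r) ^ 2

theorem sq_nonneg' (u : JT T) (F : Finset (Finset T)) : 0 ≤ u.sq F :=
  sum_nonneg fun _ _ => sq_nonneg _

theorem sum_sum_le {ι : Type} (s : Finset ι) (S : ι → Finset T)
    (hd : ∀ i ∈ s, ∀ j ∈ s, i ≠ j → Disjoint (S i) (S j)) (f : T → ℝ) (A : Finset T)
    (hf : ∀ r, 0 ≤ f r) (hA : ∀ r, r ∉ A → f r = 0) :
    ∑ i ∈ s, ∑ r ∈ S i, f r ≤ ∑ r ∈ A, f r := by
  classical
  rw [← sum_biUnion (fun i hi j hj hij => hd i hi j hj hij)]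
  calc ∑ r ∈ s.biUnion S, f r ≤ ∑ r ∈ s.biUnion S ∪ A, f r :=
        sum_le_sum_of_subset_of_nonneg subset_union_left fun r _ _ => hf r
    _ = ∑ r ∈ A, f r :=
        (sum_subset subset_union_right fun r _ hr => hA r hr).symm

variable [PartialOrder T]

theorem sq_le_l1 (u : JT T) (F : Finset (Finset T)) (hF : Adm F) :
    u.sq F ≤ (∑ r ∈ u.supp, |u.val r|) ^ 2 := by
  have h1 : ∑ S ∈ F, ∑ r ∈ S, |u.val r| ≤ ∑ r ∈ u.supp, |u.val r| :=
    sum_sum_le F id hF.2 _ _ (fun _ => abs_nonneg _) fun r hr => by rw [val_eq_zero hr, abs_zero]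
  have h0 : ∀ S ∈ F, 0 ≤ ∑ r ∈ S, |u.val r| := fun S _ => sum_nonneg fun _ _ => abs_nonneg _
  calc u.sq F ≤ ∑ S ∈ F, (∑ r ∈ S, |u.val r|) ^ 2 := by
        refine sum_le_sum fun S _ => ?_
        rw [← sq_abs]
        exact pow_le_pow_left₀ (abs_nonneg _) (abs_sum_le_sum_abs _ _) 2
    _ ≤ (∑ S ∈ F, ∑ r ∈ S, |u.val r|) ^ 2 := sum_sq_le_sq_sum_of_nonneg h0
    _ ≤ _ := pow_le_pow_left₀ (sum_nonneg h0) h1 2

instance : Nonempty {F : Finset (Finset T) // Adm F} := ⟨⟨∅, adm_empty⟩⟩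

/-- The James tree norm. -/
noncomputable def jnorm (u : JT T) : ℝ := ⨆ F : {F : Finset (Finset T) // Adm F}, √(u.sq F.1)

theorem bdd (u : JT T) :
    BddAbove (Set.range fun F : {F : Finset (Finset T) // Adm F} => √(u.sq F.1)) := by
  refine ⟨∑ r ∈ u.supp, |u.val r|, ?_⟩
  rintro _ ⟨F, rfl⟩
  exact Real.sqrt_le_iff.2 ⟨sum_nonneg fun _ _ => abs_nonneg _, sq_le_l1 u F.1 F.2⟩

theorem sqrt_le_jnorm (u : JT T) {F : Finset (Finset T)} (hF : Adm F) : √(u.sq F) ≤ u.jnorm :=
  le_ciSup (bdd u) ⟨F, hF⟩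

theorem jnorm_nonneg (u : JT T) : 0 ≤ u.jnorm :=
  (Real.sqrt_nonneg _).trans (sqrt_le_jnorm u adm_empty)

theorem jnorm_le (u : JT T) {M : ℝ} (h : ∀ F, Adm F → √(u.sq F) ≤ M) : u.jnorm ≤ M :=
  ciSup_le fun F => h F.1 F.2

theorem sqrt_sq_add_le {ι : Type} (s : Finset ι) (a b : ι → ℝ) :
    √(∑ i ∈ s, (a i + b i) ^ 2) ≤ √(∑ i ∈ s, a i ^ 2) + √(∑ i ∈ s, b i ^ 2) := by
  have ha : 0 ≤ ∑ i ∈ s, a i ^ 2 := sum_nonneg fun _ _ => sq_nonneg _
  have hb : 0 ≤ ∑ i ∈ s, b i ^ 2 := sum_nonneg fun _ _ => sq_nonneg _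
  have hcs := Real.sum_mul_le_sqrt_mul_sqrt s a b
  refine Real.sqrt_le_iff.2 ⟨by positivity, ?_⟩
  have e : ∑ i ∈ s, (a i + b i) ^ 2 =
      ∑ i ∈ s, a i ^ 2 + 2 * ∑ i ∈ s, a i * b i + ∑ i ∈ s, b i ^ 2 := by
    rw [mul_sum, ← sum_add_distrib, ← sum_add_distrib]
    exact sum_congr rfl fun i _ => by ring
  rw [e, add_sq, Real.sq_sqrt ha, Real.sq_sqrt hb]
  linarith

omit [PartialOrder T] in
theorem sq_smul (c : ℝ) (u : JT T) (F : Finset (Finset T)) : (c • u).sq F = c ^ 2 * u.sq F := by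
  simp only [sq, val_smul, ← mul_sum, mul_pow]

theorem jnorm_smul_le (c : ℝ) (u : JT T) : (c • u).jnorm ≤ |c| * u.jnorm := by
  refine jnorm_le _ fun F hF => ?_
  rw [sq_smul, Real.sqrt_mul (sq_nonneg c), Real.sqrt_sq_eq_abs]
  exact mul_le_mul_of_nonneg_left (sqrt_le_jnorm u hF) (abs_nonneg c)

theorem abs_seg_le_jnorm (u : JT T) {S : Finset T} (hS : IsSeg S) :
    |∑ r ∈ S, u.val r| ≤ u.jnorm := by
  have hF : Adm ({S} : Finset (Finset T)) := ⟨by simpa using hS, by simp⟩
  have := sqrt_le_jnorm u hF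
  rwa [sq, sum_singleton, Real.sqrt_sq_eq_abs] at this

/-- The James tree norm as an additive group norm. -/
noncomputable def addGroupNorm : AddGroupNorm (JT T) where
  toFun := jnorm
  map_zero' := le_antisymm (jnorm_le _ fun F _ => by simp [sq]) (jnorm_nonneg _)
  add_le' u v := by
    refine jnorm_le _ fun F hF => ?_
    have := sqrt_sq_add_le F (fun S => ∑ r ∈ S, u.val r) (fun S => ∑ r ∈ S, v.val r)
    have h1 := sqrt_le_jnorm u hF
    have h2 := sqrt_le_jnorm v hF
    simp only [sq, val_add, sum_add_distrib] at *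
    linarith
  neg' u := by
    have : ∀ F, (-u).sq F = u.sq F := fun F => by simp [sq]
    simp only [jnorm, this]
  eq_zero_of_map_eq_zero' u hu := by
    refine ext' fun q => ?_
    have := abs_seg_le_jnorm u (isSeg_singleton q)
    rw [sum_singleton, hu] at this
    simpa using this

noncomputable instance : NormedAddCommGroup (JT T) := addGroupNorm.toNormedAddCommGroup

theorem norm_def (u : JT T) : ‖u‖ = u.jnorm := rfl

noncomputable instance : NormedSpace ℝ (JT T) where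
  norm_smul_le c u := jnorm_smul_le c u

theorem sq_le_normSq (u : JT T) {F : Finset (Finset T)} (hF : Adm F) : u.sq F ≤ ‖u‖ ^ 2 :=
  (Real.sqrt_le_iff.1 (sqrt_le_jnorm u hF)).2

theorem normSq_le (u : JT T) {c : ℝ} (h : ∀ F, Adm F → u.sq F ≤ c) : ‖u‖ ^ 2 ≤ c := by
  have hc : 0 ≤ c := (sq_nonneg' u ∅).trans (h ∅ adm_empty)
  have : ‖u‖ ≤ √c := jnorm_le _ fun F hF => Real.sqrt_le_sqrt (h F hF)
  exact (Real.le_sqrt (norm_nonneg _) hc).1 this

theorem abs_seg_le (u : JT T) {S : Finset T} (hS : IsSeg S) : |∑ r ∈ S, u.val r| ≤ ‖u‖ :=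
  abs_seg_le_jnorm u hS

/-- The indexed form of the defining inequality. -/
theorem sum_sq_le (u : JT T) {ι : Type} (s : Finset ι) (S : ι → Finset T)
    (hS : ∀ i ∈ s, IsSeg (S i)) (hd : ∀ i ∈ s, ∀ j ∈ s, i ≠ j → Disjoint (S i) (S j)) :
    ∑ i ∈ s, (∑ r ∈ S i, u.val r) ^ 2 ≤ ‖u‖ ^ 2 := by
  classical
  let s' := s.filter fun i => (S i).Nonempty
  have h1 : ∑ i ∈ s, (∑ r ∈ S i, u.val r) ^ 2 = ∑ i ∈ s', (∑ r ∈ S i, u.val r) ^ 2 := by
    refine (sum_subset (filter_subset _ _) fun i hi hi' => ?_).symm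
    have : S i = ∅ := by
      by_contra h
      exact hi' (mem_filter.2 ⟨hi, nonempty_iff_ne_empty.2 h⟩)
    simp [this]
  have hinj : Set.InjOn S s' := by
    intro i hi j hj hij
    by_contra hne
    have hi' := mem_filter.1 (mem_coe.1 hi)
    have hj' := mem_filter.1 (mem_coe.1 hj)
    have := hd i hi'.1 j hj'.1 hne
    rw [hij, disjoint_self] at this
    exact hj'.2.ne_empty this
  have hF : Adm (s'.image S) := by
    constructor
    · intro A hA
      obtain ⟨i, hi, rfl⟩ := mem_image.1 hA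
      exact hS i (mem_filter.1 hi).1
    · intro A hA B hB hAB
      obtain ⟨i, hi, rfl⟩ := mem_image.1 hA
      obtain ⟨j, hj, rfl⟩ := mem_image.1 hB
      exact hd i (mem_filter.1 hi).1 j (mem_filter.1 hj).1 fun h => hAB (by rw [h])
  have h2 := sq_le_normSq u hF
  rw [sq, sum_image hinj] at h2
  rw [h1]; exact h2

/-- Two families at once. -/
theorem sum_sq_add_le (u : JT T) {ι κ : Type} (s : Finset ι) (S : ι → Finset T)
    (t : Finset κ) (S' : κ → Finset T)
    (hS : ∀ i ∈ s, IsSeg (S i)) (hd : ∀ i ∈ s, ∀ j ∈ s, i ≠ j → Disjoint (S i) (S j))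
    (hS' : ∀ i ∈ t, IsSeg (S' i)) (hd' : ∀ i ∈ t, ∀ j ∈ t, i ≠ j → Disjoint (S' i) (S' j))
    (hc : ∀ i ∈ s, ∀ j ∈ t, Disjoint (S i) (S' j)) :
    ∑ i ∈ s, (∑ r ∈ S i, u.val r) ^ 2 + ∑ i ∈ t, (∑ r ∈ S' i, u.val r) ^ 2 ≤ ‖u‖ ^ 2 := by
  have := sum_sq_le u (s.disjSum t) (Sum.elim S S') ?_ ?_
  · simpa [sum_disjSum] using this
  · rintro (i | i) hi
    · exact hS i (by simpa using hi)
    · exact hS' i (by simpa using hi)
  · rintro (i | i) hi (j | j) hj hij
    · exact hd i (by simpa using hi) j (by simpa using hj) fun h => hij (by rw [h])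
    · exact hc i (by simpa using hi) j (by simpa using hj)
    · exact (hc j (by simpa using hj) i (by simpa using hi)).symm
    · exact hd' i (by simpa using hi) j (by simpa using hj) fun h => hij (by rw [h])

/-- The square sum of the coordinates is at most the square of the norm. -/
theorem sum_val_sq_le (u : JT T) (A : Finset T) : ∑ r ∈ A, u.val r ^ 2 ≤ ‖u‖ ^ 2 := by
  have := sum_sq_le u A (fun r => {r}) (fun r _ => isSeg_singleton r)
    (fun i _ j _ hij => by simpa using hij)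
  simpa using this

omit [PartialOrder T] in
open Classical in
/-- Restriction to a set of nodes. -/
noncomputable def resL (B : T → Prop) : JT T →ₗ[ℝ] JT T where
  toFun u := mk (u.fs.filter B)
  map_add' u v := ext' fun q => by
    simp only [val_add, val_mk, Finsupp.filter_apply]
    split_ifs
    · rfl
    · simp
  map_smul' c u := ext' fun q => by
    simp only [val_smul, val_mk, Finsupp.filter_apply, RingHom.id_apply]
    split_ifs
    · rfl
    · simp

omit [PartialOrder T] in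
theorem val_resL (B : T → Prop) [DecidablePred B] (u : JT T) (q : T) :
    (resL B u).val q = if B q then u.val q else 0 := by
  simp only [resL, LinearMap.coe_mk, AddHom.coe_mk, val_mk, Finsupp.filter_apply]
  congr

omit [PartialOrder T] in
theorem sum_val_resL (B : T → Prop) [DecidablePred B] (u : JT T) (S : Finset T) :
    ∑ r ∈ S, (resL B u).val r = ∑ r ∈ S.filter B, u.val r := by
  simp only [val_resL, sum_filter]

theorem norm_resL_le {B : T → Prop} (hB : Cvx B) (u : JT T) : ‖resL B u‖ ≤ ‖u‖ := by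
  classical
  refine (sq_le_sq₀ (norm_nonneg _) (norm_nonneg _)).1 (normSq_le _ fun F hF => ?_)
  simp only [sq, sum_val_resL]
  exact sum_sq_le u F _ (fun S hS => (hF.1 S hS).filter hB)
    fun S hS S' hS' h => disjoint_filter_filter (hF.2 S hS S' hS' h)

omit [PartialOrder T] in
theorem resL_add_resL_not (B : T → Prop) (u : JT T) : resL B u + resL (fun q => ¬ B q) u = u :=
  ext' fun q => by
    classical
    simp only [val_add, val_resL]
    by_cases h : B q <;> simp [h]

omit [PartialOrder T] in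
theorem sub_resL (B : T → Prop) (u : JT T) : u - resL B u = resL (fun q => ¬ B q) u := by
  rw [sub_eq_iff_eq_add', resL_add_resL_not]

/-- Lower square estimate. -/
theorem lower_est {B : T → Prop} (hB : ∀ a b, a ≤ b → B b → B a) (u : JT T) :
    ‖resL B u‖ ^ 2 + ‖resL (fun q => ¬ B q) u‖ ^ 2 ≤ ‖u‖ ^ 2 := by
  classical
  have key : ∀ F, Adm F → ∀ F', Adm F' →
      (resL B u).sq F + (resL (fun q => ¬ B q) u).sq F' ≤ ‖u‖ ^ 2 := by
    intro F hF F' hF'
    simp only [sq, sum_val_resL]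
    refine sum_sq_add_le u F _ F' _ (fun S hS => (hF.1 S hS).filter (cvx_of_lower hB))
      (fun S hS S' hS' h => disjoint_filter_filter (hF.2 S hS S' hS' h))
      (fun S hS => (hF'.1 S hS).filter (cvx_not_of_lower hB))
      (fun S hS S' hS' h => disjoint_filter_filter (hF'.2 S hS S' hS' h)) fun S _ S' _ => ?_
    rw [disjoint_left]
    intro r h1 h2
    exact (mem_filter.1 h2).2 (mem_filter.1 h1).2
  have h1 : ∀ F', Adm F' → (resL (fun q => ¬ B q) u).sq F' ≤ ‖u‖ ^ 2 - ‖resL B u‖ ^ 2 := by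
    intro F' hF'
    have := normSq_le (resL B u) (c := ‖u‖ ^ 2 - (resL (fun q => ¬ B q) u).sq F')
      fun F hF => by have := key F hF F' hF'; linarith
    linarith
  have := normSq_le _ h1
  linarith

/-- Upper square estimate for unions of trees. -/
theorem upper_est {B : T → Prop} (hB : ∀ a b, a ≤ b → (B a ↔ B b)) (u v : JT T) :
    ‖resL B u + resL (fun q => ¬ B q) v‖ ^ 2 ≤ ‖u‖ ^ 2 + ‖v‖ ^ 2 := by
  classical
  have hl : ∀ a b, a ≤ b → B b → B a := fun a b h => (hB a b h).2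
  refine normSq_le _ fun F hF => ?_
  have h1 := sum_sq_le u F (fun S => S.filter B) (fun S hS => (hF.1 S hS).filter (cvx_of_lower hl))
    (fun S hS S' hS' h => disjoint_filter_filter (hF.2 S hS S' hS' h))
  have h2 := sum_sq_le v F (fun S => S.filter fun q => ¬ B q)
    (fun S hS => (hF.1 S hS).filter (cvx_not_of_lower hl))
    (fun S hS S' hS' h => disjoint_filter_filter (hF.2 S hS S' hS' h))
  refine le_trans ?_ (add_le_add h1 h2)
  rw [sq, ← sum_add_distrib]
  refine sum_le_sum fun S hS => ?_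
  simp only [val_add, sum_add_distrib, sum_val_resL]
  by_cases h : ∃ p ∈ S, B p
  · obtain ⟨p, hp, hBp⟩ := h
    have : S.filter (fun q => ¬ B q) = ∅ := by
      rw [filter_eq_empty_iff]
      intro q hq hn
      rcases (hF.1 S hS).1 p hp q hq with h | h
      · exact hn ((hB p q h).1 hBp)
      · exact hn ((hB q p h).2 hBp)
    simp [this]
  · have : S.filter B = ∅ := by
      rw [filter_eq_empty_iff]
      intro q hq hn
      exact h ⟨q, hq, hn⟩
    simp [this]

end JT

end Vale.Agent.P069
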