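import Mathlib

namespace Vale.Agent.P069

open Finset

/-- The scale dependent sign rule. -/
theorem exists_psi {T : Type} [Preorder T] (C : Finset T)
    (hC : ∀ p ∈ C, ∀ q ∈ C, p ≤ q ∨ q ≤ p) (σ : T → ℝ) :
    ∃ ψ : ℝ → ℝ, (∀ w w', |ψ w - ψ w'| ≤ |w - w'|) ∧ (∀ w, 0 ≤ w → 0 ≤ ψ w ∧ ψ w ≤ w) ∧
      (∀ a ∈ C, ∀ w, 0 ≤ w → ∃ b ∈ C, a ≤ b ∧
        2 * σ a * (w - ψ w) ≤ 2 * σ b ^ 2 - 2 * σ a * σ b + w ^ 2 / 2) ∧
      (∀ a ∈ C, ∀ w, 0 ≤ w → ∃ b ∈ C, a ≤ b ∧
        2 * σ a * (- ψ w) ≤ 2 * σ b ^ 2 - 2 * σ a * σ b + w ^ 2 / 2) := by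
  classical
  let μ : T → ℝ := fun a => (C.filter (a ≤ ·)).fold max 0 (fun b => - σ b)
  have hμ0 : ∀ a, 0 ≤ μ a := fun a => by
    simp only [μ]; rw [le_fold_max]; exact Or.inl le_rfl
  have hμge : ∀ a, ∀ b ∈ C, a ≤ b → - σ b ≤ μ a := fun a b hb hab => by
    simp only [μ]; rw [le_fold_max]
    exact Or.inr ⟨b, mem_filter.2 ⟨hb, hab⟩, le_rfl⟩
  have hμatt : ∀ a, μ a = 0 ∨ ∃ b ∈ C, a ≤ b ∧ μ a = - σ b := fun a => by
    have h : μ a ≤ (C.filter (a ≤ ·)).fold max 0 (fun b => - σ b) := le_rfl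
    rw [le_fold_max] at h
    rcases h with h | ⟨b, hb, h⟩
    · exact Or.inl (le_antisymm h (hμ0 a))
    · rw [mem_filter] at hb
      exact Or.inr ⟨b, hb.1, hb.2, le_antisymm h (hμge a b hb.1 hb.2)⟩
  let ψ : ℝ → ℝ := fun w => C.fold max 0 (fun a => min w (σ a) - μ a)
  have hψ0 : ∀ w, 0 ≤ ψ w := fun w => by
    simp only [ψ]; rw [le_fold_max]; exact Or.inl le_rfl
  have hψge : ∀ w, ∀ a ∈ C, min w (σ a) - μ a ≤ ψ w := fun w a ha => by
    simp only [ψ]; rw [le_fold_max]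
    exact Or.inr ⟨a, ha, le_rfl⟩
  have hψatt : ∀ w, ψ w = 0 ∨ ∃ a ∈ C, ψ w = min w (σ a) - μ a := fun w => by
    have h : ψ w ≤ C.fold max 0 (fun a => min w (σ a) - μ a) := le_rfl
    rw [le_fold_max] at h
    rcases h with h | ⟨a, ha, h⟩
    · exact Or.inl (le_antisymm h (hψ0 w))
    · exact Or.inr ⟨a, ha, le_antisymm h (hψge w a ha)⟩
  have hlip : ∀ w w', ψ w ≤ ψ w' + |w - w'| := fun w w' => by
    rcases hψatt w with h | ⟨a, ha, h⟩
    · rw [h]; have := hψ0 w'; have := abs_nonneg (w - w'); linarith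
    · have h1 := hψge w' a ha
      have h2 : min w (σ a) ≤ min w' (σ a) + |w - w'| := by
        have := le_abs_self (w - w')
        have := abs_nonneg (w - w')
        rcases le_total w' (σ a) with h3 | h3
        · rw [min_eq_left h3]; have := min_le_left w (σ a); linarith
        · rw [min_eq_right h3]; have := min_le_right w (σ a); linarith
      linarith
  refine ⟨ψ, fun w w' => ?_, fun w hw => ⟨hψ0 w, ?_⟩, fun a ha w hw => ?_, fun b hb w hw => ?_⟩
  · rw [abs_le]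
    have h1 := hlip w w'
    have h2 := hlip w' w
    rw [abs_sub_comm w' w] at h2
    constructor <;> linarith
  · rcases hψatt w with h | ⟨a, ha, h⟩
    · rw [h]; exact hw
    · rw [h]; have := min_le_left w (σ a); have := hμ0 a; linarith
  · have hle : ψ w ≤ w := by
      rcases hψatt w with h | ⟨a, ha, h⟩
      · rw [h]; exact hw
      · rw [h]; have := min_le_left w (σ a); have := hμ0 a; linarith
    rcases le_or_gt (σ a) 0 with hs | hs
    · refine ⟨a, ha, le_rfl, ?_⟩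
      nlinarith [sq_nonneg w, mul_nonneg (neg_nonneg.2 hs) (sub_nonneg.2 hle)]
    · have h1 := hψge w a ha
      have h2 : 2 * σ a * (w - min w (σ a)) ≤ w ^ 2 / 2 := by
        rcases le_total w (σ a) with h3 | h3
        · rw [min_eq_left h3]; nlinarith [sq_nonneg w]
        · rw [min_eq_right h3]; nlinarith [sq_nonneg (w - 2 * σ a)]
      have h3 : 2 * σ a * (w - ψ w) ≤ 2 * σ a * (w - min w (σ a)) + 2 * σ a * μ a := by
        nlinarith
      rcases hμatt a with h | ⟨b, hb, hab, h⟩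
      · refine ⟨a, ha, le_rfl, ?_⟩
        rw [h] at h3; nlinarith
      · refine ⟨b, hb, hab, ?_⟩
        rw [h] at h3; nlinarith [sq_nonneg (σ b)]
  · rcases le_or_gt 0 (σ b) with hs | hs
    · refine ⟨b, hb, le_rfl, ?_⟩
      nlinarith [sq_nonneg w, mul_nonneg hs (hψ0 w)]
    · rcases hψatt w with h | ⟨a, ha, h⟩
      · refine ⟨b, hb, le_rfl, ?_⟩
        rw [h]; nlinarith [sq_nonneg w]
      · rcases hC a ha b hb with hab | hba
        · refine ⟨b, hb, le_rfl, ?_⟩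
          have h1 := hμge a b hb hab
          have h2 := min_le_left w (σ a)
          have h3 : ψ w ≤ w + σ b := by linarith
          nlinarith [sq_nonneg (w + 2 * σ b)]
        · refine ⟨a, ha, hba, ?_⟩
          have h2 := min_le_right w (σ a)
          have h3 : ψ w ≤ σ a := by have := hμ0 a; linarith
          nlinarith [sq_nonneg w, sq_nonneg (σ a)]

/-- The property of a piece function used in the key lemma. -/
def Piece {T : Type} [Preorder T] (C : Finset T) (σ : T → ℝ) (G : ℝ → ℝ) : Prop :=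
  G 0 = 0 ∧ (∀ w w', |G w - G w'| ≤ 2 * |w - w'|) ∧
    ∀ a ∈ C, ∀ w, ∃ b ∈ C, a ≤ b ∧ (σ a + G w) ^ 2 ≤ (σ a - σ b) ^ 2 + σ b ^ 2 + 4 * w ^ 2

theorem exists_pieces {T : Type} [Preorder T] (C : Finset T)
    (hC : ∀ p ∈ C, ∀ q ∈ C, p ≤ q ∨ q ≤ p) (σ : T → ℝ) :
    ∃ f g : ℝ → ℝ, (∀ w, f w - g w = w) ∧ Piece C σ f ∧ Piece C σ g := by
  obtain ⟨ψ, hlip, hbd, h1, h2⟩ := exists_psi C hC σ
  have hψ0 : ψ 0 = 0 := le_antisymm (hbd 0 le_rfl).2 (hbd 0 le_rfl).1
  have key : ∀ (m : ℝ → ℝ), m 0 = 0 → (∀ w w', |m w - m w'| ≤ |w - w'|) →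
      (∀ w, m w = |w| ∨ m w = 0) → Piece C σ (fun w => m w - ψ |w|) := by
    intro m hm0 hml hm
    refine ⟨by simp [hm0, hψ0], fun w w' => ?_, fun a ha w => ?_⟩
    · have e1 := hml w w'
      have e2 := hlip |w| |w'|
      have e3 := abs_abs_sub_abs_le_abs_sub w w'
      have e4 : m w - ψ |w| - (m w' - ψ |w'|) = (m w - m w') - (ψ |w| - ψ |w'|) := by ring
      rw [e4]
      have e5 := abs_sub (m w - m w') (ψ |w| - ψ |w'|)
      linarith
    · have hb := hbd |w| (abs_nonneg w)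
      have hsq : |w| ^ 2 = w ^ 2 := sq_abs w
      rcases hm w with h | h
      · obtain ⟨b, hbC, hab, hh⟩ := h1 a ha |w| (abs_nonneg w)
        refine ⟨b, hbC, hab, ?_⟩
        simp only [h]
        have : (|w| - ψ |w|) ^ 2 ≤ |w| ^ 2 := by nlinarith [hb.1, hb.2]
        nlinarith [sq_nonneg w]
      · obtain ⟨b, hbC, hab, hh⟩ := h2 a ha |w| (abs_nonneg w)
        refine ⟨b, hbC, hab, ?_⟩
        simp only [h]
        have : (ψ |w|) ^ 2 ≤ |w| ^ 2 := by nlinarith [hb.1, hb.2]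
        nlinarith [sq_nonneg w]
  refine ⟨fun w => max w 0 - ψ |w|, fun w => max (-w) 0 - ψ |w|, fun w => ?_, ?_, ?_⟩
  · have := max_zero_sub_max_neg_zero_eq_self w
    simp only; linarith
  · refine key (fun w => max w 0) (by simp) (fun w w' => abs_max_sub_max_le_abs w w' 0) fun w => ?_
    rcases le_total 0 w with h | h
    · left; simp [max_eq_left h, abs_of_nonneg h]
    · right; simp [max_eq_right h]
  · refine key (fun w => max (-w) 0) (by simp) (fun w w' => ?_) fun w => ?_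
    · have := abs_max_sub_max_le_abs (-w) (-w') 0
      rwa [show -w - -w' = -(w - w') by ring, abs_neg] at this
    · rcases le_total 0 w with h | h
      · right; simp [h]
      · left; simp [max_eq_left (neg_nonneg.2 h), abs_of_nonpos h]

end Vale.Agent.P069
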