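import Vale.Agent.P069.JT
import Vale.Agent.P069.Scalar

namespace Vale.Agent.P069

open Finset

namespace JT

variable {T : Type} [PartialOrder T] [LocallyFiniteOrderBot T] [Forest T]

/-- Sum over the closed root path. -/
noncomputable def W (v : JT T) (q : T) : ℝ := ∑ r ∈ Iic q, v.val r

/-- Sum over the open root path. -/
noncomputable def W' (v : JT T) (q : T) : ℝ := ∑ r ∈ Iio q, v.val r

omit [Forest T] in
theorem sum_Iic_eq (f : T → ℝ) (q : T) : ∑ r ∈ Iic q, f r = f q + ∑ r ∈ Iio q, f r := by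
  classical
  rw [← Iio_insert, sum_insert (by simp)]

omit [Forest T] in
theorem W_eq (v : JT T) (q : T) : W v q = v.val q + W' v q := sum_Iic_eq _ q

theorem tele_aux (v : JT T) (G : ℝ → ℝ) (n : ℕ) : ∀ q : T, (Iio q).card = n →
    ∑ r ∈ Iio q, (G (W v r) - G (W' v r)) = G (W' v q) - G 0 := by
  induction n using Nat.strong_induction_on with
  | _ n ih =>
    intro q hq
    rcases (Iio q).eq_empty_or_nonempty with h | h
    · simp [W', h]
    · obtain ⟨p, hp, hmax⟩ := exists_top (S := Iio q) (fun a ha b hb =>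
        Forest.chain (mem_Iio.1 ha).le (mem_Iio.1 hb).le) h
      have e : Iio q = Iic p := by
        ext r
        simp only [mem_Iio, mem_Iic]
        exact ⟨fun hr => hmax r (mem_Iio.2 hr), fun hr => hr.trans_lt (mem_Iio.1 hp)⟩
      have hlt : (Iio p).card < n := by
        rw [← hq, e]
        refine card_lt_card ⟨Iio_subset_Iic_self, fun hh => ?_⟩
        exact lt_irrefl p (mem_Iio.1 (hh (mem_Iic.2 le_rfl)))
      have h1 := ih _ hlt p rfl
      have h2 : W' v q = W v p := by rw [W', e, W]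
      rw [e, sum_Iic_eq, h1, h2]
      ring

theorem tele_Iio (v : JT T) (G : ℝ → ℝ) (q : T) :
    ∑ r ∈ Iio q, (G (W v r) - G (W' v r)) = G (W' v q) - G 0 := tele_aux v G _ q rfl

theorem tele_Iic (v : JT T) (G : ℝ → ℝ) (q : T) :
    ∑ r ∈ Iic q, (G (W v r) - G (W' v r)) = G (W v q) - G 0 := by
  rw [sum_Iic_eq, tele_Iio]; ring

theorem tele_seg (v : JT T) (G : ℝ → ℝ) {S : Finset T} (hS : IsSeg S) {l m : T} (hl : l ∈ S)
    (hm : m ∈ S) (hl' : ∀ r ∈ S, l ≤ r) (hm' : ∀ r ∈ S, r ≤ m) :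
    ∑ r ∈ S, (G (W v r) - G (W' v r)) = G (W v m) - G (W' v l) := by
  classical
  have hsub : Iio l ⊆ Iic m := fun r hr => mem_Iic.2 ((mem_Iio.1 hr).le.trans (hm' l hl))
  have e : S = Iic m \ Iio l := by
    ext r
    simp only [mem_sdiff, mem_Iic, mem_Iio]
    constructor
    · intro hr
      exact ⟨hm' r hr, fun h => (hl' r hr).not_gt h⟩
    · rintro ⟨h1, h2⟩
      rcases Forest.chain h1 (hm' l hl) with h | h
      · rcases h.eq_or_lt with h | h
        · rw [h]; exact hl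
        · exact absurd h h2
      · exact hS.2 l hl m hm r h h1
  have h := sum_sdiff (f := fun r => G (W v r) - G (W' v r)) hsub
  rw [← e, tele_Iio, tele_Iic] at h
  linarith

open Classical in
/-- The part of the root path inside `A`. -/
noncomputable def Cq (A : T → Prop) (q : T) : Finset T := (Iic q).filter A

open Classical in
/-- Final sums along a chain. -/
noncomputable def sig (u : JT T) (C : Finset T) (a : T) : ℝ := ∑ r ∈ C.filter (a ≤ ·), u.val r

theorem Cq_chain (A : T → Prop) (q : T) : ∀ a ∈ Cq A q, ∀ b ∈ Cq A q, a ≤ b ∨ b ≤ a := by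
  classical
  intro a ha b hb
  simp only [Cq, mem_filter, mem_Iic] at ha hb
  exact Forest.chain ha.1 hb.1

omit [Forest T] in
theorem mem_Cq {A : T → Prop} {q r : T} : r ∈ Cq A q ↔ r ≤ q ∧ A r := by
  simp [Cq]

theorem Cq_eq {A : T → Prop} (hA : ∀ a b, a ≤ b → A b → A a) {p q : T} (hpq : p ≤ q)
    (hp : ¬ A p) : Cq A p = Cq A q := by
  ext r
  simp only [mem_Cq]
  refine ⟨fun h => ⟨h.1.trans hpq, h.2⟩, fun h => ⟨?_, h.2⟩⟩
  rcases Forest.chain h.1 hpq with h' | h'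
  · exact h'
  · exact absurd (hA p r h' h.2) hp

/-- The piece of `v` cut out by the family of functions `G`. -/
noncomputable def piece (A : T → Prop) (v : JT T) (G : Finset T → ℝ → ℝ) : JT T :=
  mk (Finsupp.onFinset v.supp (fun q => G (Cq A q) (W v q) - G (Cq A q) (W' v q)) fun q hq => by
    by_contra h
    rw [W_eq, val_eq_zero h, zero_add, sub_self] at hq
    exact hq rfl)

omit [Forest T] in
theorem val_piece (A : T → Prop) (v : JT T) (G : Finset T → ℝ → ℝ) (q : T) :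
    (piece A v G).val q = G (Cq A q) (W v q) - G (Cq A q) (W' v q) := rfl

omit [Forest T] in
theorem val_piece_eq_zero (A : T → Prop) (v : JT T) (G : Finset T → ℝ → ℝ) {q : T}
    (hq : v.val q = 0) : (piece A v G).val q = 0 := by
  rw [val_piece, W_eq, hq, zero_add, sub_self]

theorem seg_piece {A : T → Prop} [DecidablePred A] (hA : ∀ a b, a ≤ b → A b → A a) {u v : JT T}
    (hu : ∀ q, ¬ A q → u.val q = 0) (hv : ∀ q, A q → v.val q = 0) {G : Finset T → ℝ → ℝ}
    (hG : ∀ q, Piece (Cq A q) (sig u (Cq A q)) (G (Cq A q))) {S : Finset T} (hS : IsSeg S) :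
    ∃ S₁ S₂ : Finset T, IsSeg S₁ ∧ IsSeg S₂ ∧ S₁ ⊆ S ∧ S₂ ⊆ S ∧ Disjoint S₁ S₂ ∧
      (∑ r ∈ S, (u + piece A v G).val r) ^ 2 ≤ (∑ r ∈ S₁, u.val r) ^ 2 + (∑ r ∈ S₂, u.val r) ^ 2
        + 4 * (∑ r ∈ S.filter (fun r => ¬ A r), v.val r) ^ 2 := by
  classical
  set SA := S.filter A with hSA
  set S' := S.filter (fun r => ¬ A r) with hS'
  have hsegA : IsSeg SA := hS.filter (cvx_of_lower hA)
  have hseg' : IsSeg S' := hS.filter (cvx_not_of_lower hA)
  have hsplit : ∑ r ∈ S, (u + piece A v G).val r =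
      ∑ r ∈ SA, u.val r + ∑ r ∈ S', (piece A v G).val r := by
    simp only [val_add, sum_add_distrib]
    congr 1
    · refine (sum_subset (filter_subset _ _) fun r hr hr' => hu r fun h => hr' ?_).symm
      exact mem_filter.2 ⟨hr, h⟩
    · refine (sum_subset (filter_subset _ _) fun r hr hr' => ?_).symm
      refine val_piece_eq_zero A v G (hv r ?_)
      by_contra h
      exact hr' (mem_filter.2 ⟨hr, h⟩)
  rw [hsplit]
  rcases S'.eq_empty_or_nonempty with h0 | hne
  · refine ⟨SA, ∅, hsegA, isSeg_empty, filter_subset _ _, empty_subset _, disjoint_empty_right _, ?_⟩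
    simp [h0]
  obtain ⟨m, hm, hm'⟩ := exists_top hseg'.1 hne
  obtain ⟨l, hl, hl'⟩ := exists_bot hseg'.1 hne
  have hmS := mem_filter.1 hm
  have hlS := mem_filter.1 hl
  have hsum1 : ∑ r ∈ S', (piece A v G).val r = G (Cq A m) (W v m) - G (Cq A m) (W' v l) := by
    rw [← tele_seg v (G (Cq A m)) hseg' hl hm hl' hm']
    refine sum_congr rfl fun r hr => ?_
    rw [val_piece, Cq_eq hA (hm' r hr) (mem_filter.1 hr).2]
  have hsum2 : ∑ r ∈ S', v.val r = W v m - W' v l := by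
    have := tele_seg v id hseg' hl hm hl' hm'
    simp only [id] at this
    rw [← this]
    refine sum_congr rfl fun r _ => ?_
    rw [W_eq]; ring
  rw [hsum1, hsum2]
  obtain ⟨hG0, hG1, hG2⟩ := hG m
  rcases SA.eq_empty_or_nonempty with hA0 | hAne
  · refine ⟨∅, ∅, isSeg_empty, isSeg_empty, empty_subset _, empty_subset _,
      disjoint_empty_right _, ?_⟩
    have h1 := hG1 (W v m) (W' v l)
    have h2 := pow_le_pow_left₀ (abs_nonneg _) h1 2
    rw [mul_pow, sq_abs, sq_abs] at h2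
    simp only [hA0, sum_empty, zero_add]
    linarith
  obtain ⟨a, ha, ha'⟩ := exists_bot hsegA.1 hAne
  have haS := mem_filter.1 ha
  have hal : a ≤ l := by
    rcases hS.1 a haS.1 l hlS.1 with h | h
    · exact h
    · exact absurd (hA l a h haS.2) hlS.2
  have hW' : W' v l = 0 := by
    refine sum_eq_zero fun r hr => hv r ?_
    have hrl := mem_Iio.1 hr
    rcases Forest.chain hrl.le hal with h | h
    · exact hA r a h haS.2
    · by_contra hr'
      have : r ∈ S' := mem_filter.2 ⟨hS.2 a haS.1 l hlS.1 r h hrl.le, hr'⟩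
      exact (hl' r this).not_gt hrl
  have hle : ∀ r ∈ SA, r ≤ m := fun r hr => by
    have hrS := mem_filter.1 hr
    rcases hS.1 r hrS.1 m hmS.1 with h | h
    · exact h
    · exact absurd (hA m r h hrS.2) hmS.2
  have hfil : ∀ b, a ≤ b → (Cq A m).filter (b ≤ ·) = SA.filter (b ≤ ·) := fun b hab => by
    ext r
    simp only [mem_filter, mem_Cq, hSA]
    constructor
    · rintro ⟨⟨h1, h2⟩, h3⟩
      exact ⟨⟨hS.2 a haS.1 m hmS.1 r (hab.trans h3) h1, h2⟩, h3⟩
    · rintro ⟨⟨h1, h2⟩, h3⟩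
      exact ⟨⟨hle r (mem_filter.2 ⟨h1, h2⟩), h2⟩, h3⟩
  have hsa : sig u (Cq A m) a = ∑ r ∈ SA, u.val r := by
    rw [sig, hfil a le_rfl, filter_true_of_mem ha']
  obtain ⟨b, -, hab, hb⟩ := hG2 a (mem_Cq.2 ⟨hle a ha, haS.2⟩) (W v m)
  have hsb : sig u (Cq A m) b = ∑ r ∈ SA.filter (b ≤ ·), u.val r := by
    rw [sig, hfil b hab]
  have hup : ∀ p q : T, p ≤ q → ¬ b ≤ q → ¬ b ≤ p := fun p q h1 h2 h3 => h2 (h3.trans h1)
  refine ⟨SA.filter (fun r => ¬ b ≤ r), SA.filter (b ≤ ·), hsegA.filter (cvx_of_lower hup),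
    hsegA.filter (fun p _ r hp _ h1 _ => le_trans hp h1),
    (filter_subset _ _).trans (filter_subset _ _),
    (filter_subset _ _).trans (filter_subset _ _), ?_, ?_⟩
  · rw [disjoint_left]
    intro r h1 h2
    exact (mem_filter.1 h1).2 (mem_filter.1 h2).2
  · have h3 := sum_filter_add_sum_filter_not SA (b ≤ ·) u.val
    have h4 : ∑ r ∈ SA.filter (fun r => ¬ b ≤ r), u.val r =
        sig u (Cq A m) a - sig u (Cq A m) b := by rw [hsa, hsb]; linarith
    rw [h4, ← hsb, ← hsa, hW', hG0, sub_zero, sub_zero]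
    exact hb

theorem norm_add_piece {A : T → Prop} (hA : ∀ a b, a ≤ b → A b → A a) {u v : JT T}
    (hu : ∀ q, ¬ A q → u.val q = 0) (hv : ∀ q, A q → v.val q = 0) {G : Finset T → ℝ → ℝ}
    (hG : ∀ q, Piece (Cq A q) (sig u (Cq A q)) (G (Cq A q))) :
    ‖u + piece A v G‖ ^ 2 ≤ ‖u‖ ^ 2 + 4 * ‖v‖ ^ 2 := by
  classical
  refine normSq_le _ fun F hF => ?_
  choose! S₁ S₂ h1 h2 h3 h4 h5 h6 using fun S (hS : IsSeg S) => seg_piece hA hu hv hG hS
  have e1 := sum_sq_add_le u F S₁ F S₂ (fun S hS => h1 S (hF.1 S hS))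
    (fun S hS S' hS' h => (hF.2 S hS S' hS' h).mono (h3 S (hF.1 S hS)) (h3 S' (hF.1 S' hS')))
    (fun S hS => h2 S (hF.1 S hS))
    (fun S hS S' hS' h => (hF.2 S hS S' hS' h).mono (h4 S (hF.1 S hS)) (h4 S' (hF.1 S' hS')))
    (fun S hS S' hS' => by
      by_cases h : S = S'
      · subst h; exact h5 S (hF.1 S hS)
      · exact (hF.2 S hS S' hS' h).mono (h3 S (hF.1 S hS)) (h4 S' (hF.1 S' hS')))
  have e2 := sum_sq_le v F (fun S => S.filter fun r => ¬ A r)
    (fun S hS => (hF.1 S hS).filter (cvx_not_of_lower hA))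
    (fun S hS S' hS' h => disjoint_filter_filter (hF.2 S hS S' hS' h))
  have e3 := sum_le_sum fun S (hS : S ∈ F) => h6 S (hF.1 S hS)
  rw [sum_add_distrib, sum_add_distrib, ← mul_sum] at e3
  rw [sq]
  linarith

/-- The key lemma. -/
theorem key {A : T → Prop} (hA : ∀ a b, a ≤ b → A b → A a) {u v : JT T}
    (hu : ∀ q, ¬ A q → u.val q = 0) (hv : ∀ q, A q → v.val q = 0) :
    ∃ v₁ v₂ : JT T, v₁ - v₂ = v ∧ (∀ q, A q → v₁.val q = 0) ∧ (∀ q, A q → v₂.val q = 0) ∧
      ‖u + v₁‖ ^ 2 ≤ ‖u‖ ^ 2 + 4 * ‖v‖ ^ 2 ∧ ‖u + v₂‖ ^ 2 ≤ ‖u‖ ^ 2 + 4 * ‖v‖ ^ 2 := by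
  choose! f g hfg hf hg using fun (C : Finset T) (hC : ∀ p ∈ C, ∀ q ∈ C, p ≤ q ∨ q ≤ p) =>
    exists_pieces C hC (sig u C)
  refine ⟨piece A v f, piece A v g, ext' fun q => ?_, fun q hq => val_piece_eq_zero A v f (hv q hq),
    fun q hq => val_piece_eq_zero A v g (hv q hq),
    norm_add_piece hA hu hv fun q => hf _ (Cq_chain A q),
    norm_add_piece hA hu hv fun q => hg _ (Cq_chain A q)⟩
  have h1 := hfg _ (Cq_chain A q) (W v q)
  have h2 := hfg _ (Cq_chain A q) (W' v q)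
  have h3 := W_eq v q
  rw [val_sub, val_piece, val_piece]
  linarith

end JT

end Vale.Agent.P069
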