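import Vale.Agent.P069.JT
import Vale.Agent.P069.Dec

namespace Vale.Agent.P069

open Finset Filter Topology

namespace JT

variable {T : Type} [PartialOrder T]

/-- The unit vector at a node. -/
noncomputable def del (q : T) : JT T := mk (Finsupp.single q 1)

omit [PartialOrder T] in
theorem val_del [DecidableEq T] (q r : T) : (del q).val r = if q = r then 1 else 0 := by
  simp [del, Finsupp.single_apply]

omit [PartialOrder T] in
theorem val_sum_del [DecidableEq T] (A : Finset T) (c : T → ℝ) (r : T) :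
    (∑ q ∈ A, c q • del q).val r = if r ∈ A then c r else 0 := by
  rw [val_sum]
  simp [val_del]

omit [PartialOrder T] in
theorem eq_sum_del (u : JT T) {A : Finset T} (hA : ∀ q, q ∉ A → u.val q = 0) :
    u = ∑ q ∈ A, u.val q • del q := by
  classical
  refine ext' fun r => ?_
  rw [val_sum_del]
  split_ifs with h
  · rfl
  · exact hA r h

theorem apply_eq_sum (x : StrongDual ℝ (JT T)) (u : JT T) {A : Finset T}
    (hA : ∀ q, q ∉ A → u.val q = 0) : x u = ∑ q ∈ A, u.val q * x (del q) := by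
  conv_lhs => rw [eq_sum_del u hA]
  simp [map_sum]

/-- The functional summing over a finite set. -/
noncomputable def segL (S : Finset T) : JT T →ₗ[ℝ] ℝ where
  toFun u := ∑ r ∈ S, u.val r
  map_add' u v := by simp [sum_add_distrib]
  map_smul' c u := by simp [mul_sum]

theorem abs_val_le (u : JT T) (q : T) : |u.val q| ≤ ‖u‖ := by
  simpa using abs_seg_le u (isSeg_singleton q)

/-- The functional summing over a finite set, as a continuous map. -/
noncomputable def seg (S : Finset T) : StrongDual ℝ (JT T) :=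
  (segL S).mkContinuous S.card fun u => by
    refine (abs_sum_le_sum_abs _ _).trans ?_
    simpa using sum_le_sum (s := S) fun r _ => abs_val_le u r

@[simp] theorem seg_apply (S : Finset T) (u : JT T) : seg S u = ∑ r ∈ S, u.val r := rfl

/-- The coordinate functional. -/
noncomputable def crd (q : T) : StrongDual ℝ (JT T) := seg {q}

@[simp] theorem crd_apply (q : T) (u : JT T) : crd q u = u.val q := by simp [crd]

theorem norm_del_le (q : T) : ‖del q‖ ≤ 1 := by
  classical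
  refine (sq_le_sq₀ (norm_nonneg _) zero_le_one).1 (normSq_le _ fun F hF => ?_)
  refine (sq_le_l1 _ F hF).trans (le_of_eq ?_)
  have : (del q).supp = {q} := Finsupp.support_single q one_ne_zero
  rw [this]
  simp [val_del]

theorem norm_seg {S : Finset T} (hS : IsSeg S) (hne : S.Nonempty) : ‖seg S‖ = 1 := by
  classical
  refine le_antisymm (ContinuousLinearMap.opNorm_le_bound _ zero_le_one fun u => ?_) ?_
  · rw [one_mul]; exact abs_seg_le u hS
  · obtain ⟨q, hq⟩ := hne
    have h1 := (seg S).le_opNorm (del q)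
    have h2 : seg S (del q) = 1 := by simp [val_del, hq]
    rw [h2, norm_one] at h1
    exact h1.trans (mul_le_of_le_one_right (norm_nonneg _) (norm_del_le q))

theorem abs_sum_mul_le {ι : Type} (A : Finset ι) (a b : ι → ℝ) {α β : ℝ} (hα : 0 ≤ α) (hβ : 0 ≤ β)
    (ha : ∑ q ∈ A, a q ^ 2 ≤ α ^ 2) (hb : ∑ q ∈ A, b q ^ 2 ≤ β ^ 2) :
    |∑ q ∈ A, a q * b q| ≤ α * β := by
  refine abs_le_of_sq_le_sq' ?_ (mul_nonneg hα hβ) |> abs_le.2
  refine (sum_mul_sq_le_sq_mul_sq A a b).trans ?_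
  rw [mul_pow]
  exact mul_le_mul ha hb (sum_nonneg fun _ _ => sq_nonneg _) (sq_nonneg _)

theorem norm_sum_crd_le (A : Finset T) (c : T → ℝ) :
    ‖∑ q ∈ A, c q • crd q‖ ≤ √(∑ q ∈ A, c q ^ 2) := by
  refine ContinuousLinearMap.opNorm_le_bound _ (Real.sqrt_nonneg _) fun u => ?_
  have e : (∑ q ∈ A, c q • crd q) u = ∑ q ∈ A, c q * u.val q := by
    simp
  rw [e]
  exact abs_sum_mul_le A _ _ (Real.sqrt_nonneg _) (norm_nonneg _)
    (Real.sq_sqrt (sum_nonneg fun _ _ => sq_nonneg _)).ge (sum_val_sq_le u A)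

theorem le_sq_of_le_mul_sqrt {s M : ℝ} (hs : 0 ≤ s) (h : s ≤ M * √s) : s ≤ M ^ 2 := by
  have h1 := Real.sq_sqrt hs
  have h2 := Real.sqrt_nonneg s
  rcases h2.eq_or_lt with h0 | h0
  · rw [← h1, ← h0]; simpa using sq_nonneg M
  · have : √s ≤ M := by nlinarith
    rw [← h1]; exact pow_le_pow_left₀ h2 this 2

theorem sum_crd_sq_le (ψ : StrongDual ℝ (StrongDual ℝ (JT T))) (A : Finset T) :
    ∑ q ∈ A, ψ (crd q) ^ 2 ≤ ‖ψ‖ ^ 2 := by
  refine le_sq_of_le_mul_sqrt (sum_nonneg fun _ _ => sq_nonneg _) ?_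
  have e : ψ (∑ q ∈ A, ψ (crd q) • crd q) = ∑ q ∈ A, ψ (crd q) ^ 2 := by
    simp [map_sum, pow_two]
  rw [← e]
  refine (le_abs_self _).trans ((ψ.le_opNorm _).trans ?_)
  rw [e]
  exact mul_le_mul_of_nonneg_left (norm_sum_crd_le A _) (norm_nonneg _)

/-- Restriction as a continuous map. -/
noncomputable def res (B : T → Prop) (hB : Cvx B) : JT T →L[ℝ] JT T :=
  (resL B).mkContinuous 1 fun u => by rw [one_mul]; exact norm_resL_le hB u

@[simp] theorem res_apply (B : T → Prop) (hB : Cvx B) (u : JT T) : res B hB u = resL B u := rfl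

variable [LocallyFiniteOrderBot T] [Forest T]

theorem lev_iff (n : ℕ) (a b : T) (h : a ≤ b) : Forest.lev a ≤ n ↔ Forest.lev b ≤ n := by
  rw [Forest.lev_eq h]

/-- Restriction to the first trees. -/
noncomputable def P (n : ℕ) : JT T →L[ℝ] JT T :=
  res (fun q => Forest.lev q ≤ n) (cvx_of_lower fun a b h => (lev_iff n a b h).2)

theorem P_apply (n : ℕ) (u : JT T) : P n u = resL (fun q => Forest.lev q ≤ n) u := rfl

theorem l2Dec : L2Dec (P : ℕ → JT T →L[ℝ] JT T) := by
  refine ⟨fun n u v => ?_, fun n u => ?_, fun u => ?_⟩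
  · rw [P_apply, P_apply, sub_resL]
    exact upper_est (lev_iff n) u v
  · rw [P_apply, sub_resL]
    exact lower_est (fun a b h => (lev_iff n a b h).2) u
  · refine tendsto_const_nhds.congr' ?_
    filter_upwards [eventually_ge_atTop (u.supp.sup Forest.lev)] with n hn
    refine ext' fun q => ?_
    rw [P_apply, val_resL]
    split_ifs with h
    · rfl
    · refine val_eq_zero fun hq => h ?_
      exact (le_sup (f := Forest.lev) hq).trans hn

theorem normSq_P_le (n : ℕ) (w : JT T) {A : Finset T} (hA : ∀ q, q ∉ A → w.val q = 0) :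
    ‖P n w‖ ^ 2 ≤ (n + 1) * ∑ q ∈ A, w.val q ^ 2 := by
  classical
  refine normSq_le _ fun F hF => ?_
  have h1 := sum_sum_le F id hF.2 (fun r => w.val r ^ 2) A (fun _ => sq_nonneg _)
    fun r hr => by rw [hA r hr]; simp
  refine le_trans ?_ (mul_le_mul_of_nonneg_left h1 (by positivity))
  rw [sq, mul_sum]
  refine sum_le_sum fun S hS => ?_
  rw [P_apply, sum_val_resL]
  refine sq_sum_le_card_mul_sum_sq.trans (mul_le_mul ?_ ?_ (sum_nonneg fun _ _ => sq_nonneg _)
    (by positivity))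
  · rcases (S.filter fun q => Forest.lev q ≤ n).eq_empty_or_nonempty with h | h
    · rw [h]; simp; positivity
    · obtain ⟨m, hm, hm'⟩ := exists_top (S := S.filter fun q => Forest.lev q ≤ n)
        (fun a ha b hb => (hF.1 S hS).1 a (mem_filter.1 ha).1 b (mem_filter.1 hb).1) h
      have h2 : (S.filter fun q => Forest.lev q ≤ n).card ≤ (Iic m).card :=
        card_le_card fun r hr => mem_Iic.2 (hm' r hr)
      have h3 := Forest.card_le m
      have h4 := (mem_filter.1 hm).2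
      exact_mod_cast (by omega : (S.filter fun q => Forest.lev q ≤ n).card ≤ n + 1)
  · exact sum_le_sum_of_subset_of_nonneg (filter_subset _ _) fun _ _ _ => sq_nonneg _

theorem sum_del_sq_le (n : ℕ) (x : StrongDual ℝ (JT T)) (A : Finset T) :
    ∑ q ∈ A, x (P n (del q)) ^ 2 ≤ (‖x‖ * √(n + 1)) ^ 2 := by
  classical
  refine le_sq_of_le_mul_sqrt (sum_nonneg fun _ _ => sq_nonneg _) ?_
  set w : JT T := ∑ q ∈ A, x (P n (del q)) • del q with hw
  have e : x (P n w) = ∑ q ∈ A, x (P n (del q)) ^ 2 := by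
    simp [hw, map_sum, pow_two]
  have h1 := normSq_P_le n w (A := A) fun q hq => by rw [hw, val_sum_del, if_neg hq]
  have h2 : ∑ q ∈ A, w.val q ^ 2 = ∑ q ∈ A, x (P n (del q)) ^ 2 :=
    sum_congr rfl fun q hq => by rw [hw, val_sum_del, if_pos hq]
  rw [h2] at h1
  have h3 := Real.le_sqrt_of_sq_le h1
  rw [Real.sqrt_mul (by positivity)] at h3
  calc ∑ q ∈ A, x (P n (del q)) ^ 2 = x (P n w) := e.symm
    _ ≤ ‖x‖ * ‖P n w‖ := (le_abs_self _).trans (x.le_opNorm _)
    _ ≤ _ := by rw [mul_assoc]; exact mul_le_mul_of_nonneg_left h3 (norm_nonneg _)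

/-- Functionals are small on vectors vanishing on a large finite set. -/
theorem exists_small (x : StrongDual ℝ (JT T)) {ε : ℝ} (hε : 0 < ε) :
    ∃ A : Finset T, ∀ v : JT T, (∀ q ∈ A, v.val q = 0) → |x v| ≤ ε * ‖v‖ := by
  classical
  obtain ⟨n, hn⟩ := Metric.tendsto_atTop.1 (l2Dec.dual.conv x) (ε / 2) (half_pos hε)
  have h1 := hn n le_rfl
  rw [dist_comm, dist_eq_norm] at h1
  obtain ⟨A, hA⟩ := exists_tail (fun q => x (P n (del q))) (sum_del_sq_le n x)
    (pow_pos (half_pos hε) 2)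
  refine ⟨A, fun v hv => ?_⟩
  have h2 : |(x - adj (P n) x) v| ≤ ε / 2 * ‖v‖ :=
    ((x - adj (P n) x).le_opNorm v).trans (mul_le_mul_of_nonneg_right h1.le (norm_nonneg _))
  have h3 : |adj (P n) x v| ≤ ‖v‖ * (ε / 2) := by
    rw [apply_eq_sum (adj (P n) x) v (A := v.supp) fun q hq => val_eq_zero hq]
    refine abs_sum_mul_le _ _ _ (norm_nonneg _) (half_pos hε).le (sum_val_sq_le v _) (hA _ ?_)
    rw [disjoint_left]
    exact fun q hq hqA => mem_supp.1 hq (hv q hqA)
  have e : x v = (x - adj (P n) x) v + adj (P n) x v := by simp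
  rw [e]
  refine (abs_add_le _ _).trans ?_
  linarith

open Classical in
/-- The downward closure of a finite set. -/
noncomputable def down (A : Finset T) : Finset T := A.biUnion Iic

omit [Forest T] in
theorem subset_down (A : Finset T) : A ⊆ down A := fun q hq => by
  simp only [down, mem_biUnion, mem_Iic]
  exact ⟨q, hq, le_rfl⟩

omit [Forest T] in
theorem down_lower (A : Finset T) : ∀ a b, a ≤ b → b ∈ down A → a ∈ down A := fun a b h hb => by
  simp only [down, mem_biUnion, mem_Iic] at *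
  obtain ⟨q, hq, hb⟩ := hb
  exact ⟨q, hq, h.trans hb⟩

theorem exists_approx (x : StrongDual ℝ (JT T)) {ε : ℝ} (hε : 0 < ε) (A₀ : Finset T) :
    ∃ A : Finset T, A₀ ⊆ A ∧ ‖x - ∑ q ∈ A, x (del q) • crd q‖ ≤ ε := by
  classical
  obtain ⟨A₁, hA₁⟩ := exists_small x hε
  refine ⟨down (A₀ ∪ A₁), subset_union_left.trans (subset_down _), ?_⟩
  set A := down (A₀ ∪ A₁) with hA
  refine ContinuousLinearMap.opNorm_le_bound _ hε.le fun v => ?_
  have e : (x - ∑ q ∈ A, x (del q) • crd q) v = x (resL (fun q => ¬ q ∈ A) v) := by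
    rw [← sub_resL, map_sub, apply_eq_sum x (resL (· ∈ A) v) (A := A)
      fun q hq => by rw [val_resL, if_neg hq]]
    simp only [sub_apply, _root_.sum_apply, smul_apply, crd_apply, smul_eq_mul]
    congr 1
    exact sum_congr rfl fun q hq => by rw [val_resL, if_pos hq, mul_comm]
  rw [e]
  refine (hA₁ _ fun q hq => ?_).trans (mul_le_mul_of_nonneg_left
    (norm_resL_le (cvx_not_of_lower (down_lower _)) v) hε.le)
  rw [val_resL, if_neg (not_not.2 (subset_down _ (mem_union_right _ hq)))]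

theorem exists_approx_bidual (ψ : StrongDual ℝ (StrongDual ℝ (JT T))) {ε : ℝ} (hε : 0 < ε) :
    ∃ u : JT T, ∀ x : StrongDual ℝ (JT T), |ψ x - x u| ≤ ε * ‖x‖ := by
  classical
  obtain ⟨n, hn⟩ := Metric.tendsto_atTop.1 (l2Dec.dual.dual.conv ψ) (ε / 2) (half_pos hε)
  have h1 := hn n le_rfl
  rw [dist_comm, dist_eq_norm] at h1
  have hs : 0 < √((n : ℝ) + 1) := by positivity
  set η := ε / 2 / √((n : ℝ) + 1) with hη
  have hη0 : 0 < η := by positivity
  obtain ⟨A₀, hA₀⟩ := exists_tail (fun q => ψ (crd q)) (sum_crd_sq_le ψ) (pow_pos hη0 2)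
  refine ⟨P n (∑ q ∈ A₀, ψ (crd q) • del q), fun x => ?_⟩
  set x' := adj (P n) x with hx'
  have h2 : |ψ x - ψ x'| ≤ ε / 2 * ‖x‖ :=
    ((ψ - adj (adj (P n)) ψ).le_opNorm x).trans (mul_le_mul_of_nonneg_right h1.le (norm_nonneg _))
  have h3 : |ψ x' - x (P n (∑ q ∈ A₀, ψ (crd q) • del q))| ≤ ε / 2 * ‖x‖ := by
    refine le_of_forall_pos_le_add fun θ hθ => ?_
    have hθ' : 0 < θ / (‖ψ‖ + 1) := by positivity
    obtain ⟨A, hA, hap⟩ := exists_approx x' hθ' A₀
    have e1 : x (P n (∑ q ∈ A₀, ψ (crd q) • del q)) = ∑ q ∈ A₀, x' (del q) * ψ (crd q) := by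
      simp [map_sum, hx', mul_comm]
    have e2 : ψ x' = ψ (x' - ∑ q ∈ A, x' (del q) • crd q) + ∑ q ∈ A, x' (del q) * ψ (crd q) := by
      simp [map_sum]
    have e3 := sum_sdiff (f := fun q => x' (del q) * ψ (crd q)) hA
    have h4 : |ψ (x' - ∑ q ∈ A, x' (del q) • crd q)| ≤ θ := by
      refine (ψ.le_opNorm _).trans ((mul_le_mul_of_nonneg_left hap (norm_nonneg _)).trans ?_)
      rw [← mul_div_assoc, div_le_iff₀ (by positivity)]
      nlinarith [norm_nonneg ψ]
    have h5 : |∑ q ∈ A \ A₀, x' (del q) * ψ (crd q)| ≤ (‖x‖ * √(n + 1)) * η :=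
      abs_sum_mul_le _ _ _ (by positivity) hη0.le (sum_del_sq_le n x _) (hA₀ _ sdiff_disjoint)
    have e4 : ‖x‖ * √(n + 1) * η = ε / 2 * ‖x‖ := by
      rw [hη]; field_simp
    rw [e1, e2, ← e3]
    rw [e4] at h5
    have e5 : ∀ a b c : ℝ, a + (b + c) - c = a + b := fun a b c => by ring
    rw [e5]
    refine (abs_add_le _ _).trans ?_
    linarith
  have e : ψ x - x (P n (∑ q ∈ A₀, ψ (crd q) • del q)) =
      (ψ x - ψ x') + (ψ x' - x (P n (∑ q ∈ A₀, ψ (crd q) • del q))) := by ring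
  rw [e]
  refine (abs_add_le _ _).trans ?_
  linarith

theorem reflexive :
    Function.Surjective (NormedSpace.inclusionInDoubleDual ℝ (StrongDual ℝ (JT T))) := by
  intro Φ
  let x : StrongDual ℝ (JT T) := Φ.comp (NormedSpace.inclusionInDoubleDual ℝ (JT T))
  refine ⟨x, ContinuousLinearMap.ext fun ψ => ?_⟩
  rw [NormedSpace.dual_def]
  refine eq_of_abs_sub_le_all fun θ hθ => ?_
  have hθ' : 0 < θ / (‖x‖ + ‖Φ‖ + 1) := by positivity
  obtain ⟨u, hu⟩ := exists_approx_bidual ψ hθ'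
  have h1 : ‖ψ - NormedSpace.inclusionInDoubleDual ℝ (JT T) u‖ ≤ θ / (‖x‖ + ‖Φ‖ + 1) :=
    ContinuousLinearMap.opNorm_le_bound _ hθ'.le fun y => hu y
  have h2 := (Φ.le_opNorm _).trans (mul_le_mul_of_nonneg_left h1 (norm_nonneg Φ))
  have h3 := hu x
  have e : ψ x - Φ ψ = (ψ x - x u) - Φ (ψ - NormedSpace.inclusionInDoubleDual ℝ (JT T) u) := by
    rw [map_sub]
    have : x u = Φ (NormedSpace.inclusionInDoubleDual ℝ (JT T) u) := rfl
    rw [this]; ring
  rw [e]
  refine (abs_sub _ _).trans ?_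
  rw [Real.norm_eq_abs] at h2
  have h4 : θ / (‖x‖ + ‖Φ‖ + 1) * (‖x‖ + ‖Φ‖) ≤ θ := by
    rw [div_mul_eq_mul_div, div_le_iff₀ (by positivity)]
    nlinarith
  linarith

theorem separable [Countable T] : TopologicalSpace.SeparableSpace (StrongDual ℝ (JT T)) := by
  rw [← TopologicalSpace.isSeparable_univ_iff]
  have h1 : TopologicalSpace.IsSeparable (Set.range (crd : T → StrongDual ℝ (JT T))) :=
    (Set.countable_range _).isSeparable
  refine h1.span (R := ℝ).closure.mono fun x _ => ?_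
  rw [Metric.mem_closure_iff]
  intro ε hε
  obtain ⟨A, -, hA⟩ := exists_approx x (half_pos hε) ∅
  refine ⟨∑ q ∈ A, x (del q) • crd q, Submodule.sum_mem _ fun q _ => Submodule.smul_mem _ (x (del q))
    (Submodule.subset_span ⟨q, rfl⟩), ?_⟩
  rw [dist_eq_norm]
  exact hA.trans_lt (half_lt_self hε)

end JT

end Vale.Agent.P069
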