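import Vale.Agent.P069.Defs
import Vale.Agent.P069.Key
import Vale.Agent.P069.Refl

namespace Vale.Agent.P069

open Finset Filter Topology

namespace JT

variable {T : Type} [PartialOrder T]

/-- The functionals vanishing on the unit vectors of a finite set. -/
noncomputable def van (A : Finset T) : Submodule ℝ (StrongDual ℝ (JT T)) :=
  LinearMap.ker (LinearMap.pi fun q : A =>
    ((NormedSpace.inclusionInDoubleDual ℝ (JT T) (del q.1) : StrongDual ℝ (JT T) →L[ℝ] ℝ) :
      StrongDual ℝ (JT T) →ₗ[ℝ] ℝ))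

theorem mem_van {A : Finset T} {y : StrongDual ℝ (JT T)} : y ∈ van A ↔ ∀ q ∈ A, y (del q) = 0 := by
  simp [van, funext_iff]

theorem van_mem_cof (A : Finset T) : van A ∈ Cof (StrongDual ℝ (JT T)) := by
  constructor
  · have : ((van A : Submodule ℝ (StrongDual ℝ (JT T))) : Set (StrongDual ℝ (JT T))) =
        ⋂ q ∈ A, {y | y (del q) = 0} := by
      ext y; simp [mem_van]
    rw [this]
    refine isClosed_biInter fun q _ => ?_
    exact isClosed_eq (NormedSpace.inclusionInDoubleDual ℝ (JT T) (del q)).continuous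
      continuous_const
  · exact (LinearMap.quotKerEquivRange _).symm.finiteDimensional

theorem van_apply {A : Finset T} {y : StrongDual ℝ (JT T)} (hy : y ∈ van A) {u : JT T}
    (hu : ∀ q, q ∉ A → u.val q = 0) : y u = 0 := by
  rw [apply_eq_sum y u hu]
  exact sum_eq_zero fun q hq => by rw [mem_van.1 hy q hq, mul_zero]

variable [LocallyFiniteOrderBot T] [Forest T]

theorem amuc_core (x : StrongDual ℝ (JT T)) (hx : ‖x‖ = 1) {t η : ℝ} (ht : 0 < t) (hη : 0 < η) :
    ∃ A : Finset T, ∀ y ∈ van A, ‖y‖ = 1 →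
      (1 - η) * √(1 + t ^ 2 / 16) - η ≤ max ‖x + t • y‖ ‖x - t • y‖ := by
  classical
  obtain ⟨A₀, hA₀⟩ := exists_small x hη
  obtain ⟨u, hu1, hu2⟩ := exists_norming x (r := 1 - η) (by linarith)
  refine ⟨down (A₀ ∪ u.supp), fun y hy hy1 => ?_⟩
  set A := down (A₀ ∪ u.supp) with hA
  have hlow : ∀ a b, a ≤ b → b ∈ A → a ∈ A := down_lower _
  obtain ⟨v₀, hv1, hv2⟩ := exists_norming y (r := 1 - η) (by linarith)
  have hu : ∀ q, ¬ q ∈ A → u.val q = 0 := fun q hq =>
    val_eq_zero fun h => hq (subset_down _ (mem_union_right _ h))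
  set v : JT T := (t / 8) • resL (fun q => ¬ q ∈ A) v₀ with hvdef
  have hv : ∀ q, q ∈ A → v.val q = 0 := fun q hq => by
    rw [hvdef, val_smul, val_resL, if_neg (not_not.2 hq), mul_zero]
  have hvn : ‖v‖ ≤ t / 8 := by
    rw [hvdef, norm_smul, Real.norm_eq_abs, abs_of_pos (by positivity)]
    exact mul_le_of_le_one_right (by positivity)
      ((norm_resL_le (cvx_not_of_lower hlow) v₀).trans hv1)
  have hyv : y v = t / 8 * y v₀ := by
    have h0 : y (resL (· ∈ A) v₀) = 0 := van_apply hy fun q hq => by rw [val_resL, if_neg hq]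
    rw [hvdef, map_smul, ← sub_resL, map_sub, h0, sub_zero, smul_eq_mul]
  obtain ⟨v₁, v₂, h12, h1, h2, hn1, hn2⟩ := key hlow hu hv
  set K := √(1 + t ^ 2 / 16) with hK
  have hK2 : K ^ 2 = 1 + t ^ 2 / 16 := Real.sq_sqrt (by positivity)
  have hK0 : 0 < K := by positivity
  have hb : ‖u‖ ^ 2 + 4 * ‖v‖ ^ 2 ≤ K ^ 2 := by
    have e1 : ‖u‖ ^ 2 ≤ 1 := pow_le_one₀ (norm_nonneg _) hu1
    have e2 := pow_le_pow_left₀ (norm_nonneg _) hvn 2
    rw [hK2]; nlinarith
  have hw : ∀ w : JT T, (∀ q, q ∈ A → w.val q = 0) → ‖u + w‖ ^ 2 ≤ ‖u‖ ^ 2 + 4 * ‖v‖ ^ 2 →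
      ‖u + w‖ ≤ K ∧ -(η * K) ≤ x w := by
    intro w hw0 hwn
    have e1 : ‖u + w‖ ≤ K := le_of_sq_le_sq (hwn.trans hb) hK0.le |> fun h => h
    have e2 : resL (fun q => ¬ q ∈ A) (u + w) = w := ext' fun q => by
      rw [val_resL]
      by_cases h : q ∈ A
      · rw [if_neg (not_not.2 h), hw0 q h]
      · rw [if_pos h, val_add, hu q h, zero_add]
    have e3 : ‖w‖ ≤ K := by
      have := norm_resL_le (cvx_not_of_lower hlow) (u + w)
      rw [e2] at this
      exact this.trans e1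
    have e4 := hA₀ w fun q hq => hw0 q (subset_down _ (mem_union_left _ hq))
    have e5 := mul_le_mul_of_nonneg_left e3 hη.le
    exact ⟨e1, (abs_le.1 (e4.trans e5)).1⟩
  obtain ⟨a1, b1⟩ := hw v₁ h1 hn1
  obtain ⟨a2, b2⟩ := hw v₂ h2 hn2
  have hyu : y u = 0 := van_apply hy hu
  set M := max ‖x + t • y‖ ‖x - t • y‖ with hM
  have c1 : (x + t • y) (u + v₁) ≤ M * K :=
    (le_abs_self _).trans (((x + t • y).le_opNorm _).trans
      (mul_le_mul (le_max_left _ _) a1 (norm_nonneg _) ((norm_nonneg _).trans (le_max_left _ _))))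
  have c2 : (x - t • y) (u + v₂) ≤ M * K :=
    (le_abs_self _).trans (((x - t • y).le_opNorm _).trans
      (mul_le_mul (le_max_right _ _) a2 (norm_nonneg _) ((norm_nonneg _).trans (le_max_left _ _))))
  have d1 : (x + t • y) (u + v₁) = x u + x v₁ + t * y v₁ := by simp [hyu]
  have d2 : (x - t • y) (u + v₂) = x u + x v₂ - t * y v₂ := by simp [hyu]
  have d3 : y v₁ - y v₂ = t / 8 * y v₀ := by rw [← map_sub, h12, hyv]
  have d4 : t * (y v₁ - y v₂) ≥ t ^ 2 / 8 * (1 - η) := by
    rw [d3]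
    have : t ^ 2 / 8 * (1 - η) ≤ t ^ 2 / 8 * y v₀ := mul_le_mul_of_nonneg_left hv2.le (by positivity)
    nlinarith
  refine le_of_mul_le_mul_right ?_ hK0
  have d5 : ((1 - η) * K - η) * K = (1 - η) * (1 + t ^ 2 / 16) - η * K := by rw [← hK2]; ring
  rw [d5]
  nlinarith

theorem amuc_bound {t : ℝ} (ht : 0 < t) :
    ((√(1 + t ^ 2 / 16) - 1 : ℝ) : EReal) ≤ amucModulus (normSeminorm ℝ (StrongDual ℝ (JT T))) t := by
  refine le_iInf₂ fun x hx => ?_
  refine le_of_forall_lt fun c hc => ?_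
  obtain ⟨c', hc1, hc2⟩ := EReal.lt_iff_exists_real_btwn.1 hc
  rw [EReal.coe_lt_coe_iff] at hc2
  set K := √(1 + t ^ 2 / 16) with hK
  have hK0 : 0 < K := by positivity
  have hη : 0 < (K - 1 - c') / (K + 1) := div_pos (by linarith) (by linarith)
  obtain ⟨A, hA⟩ := amuc_core x hx ht hη
  refine hc1.trans_le (le_iSup₂_of_le (van A) (van_mem_cof A) (le_iInf₂ fun y hy => ?_))
  rw [EReal.coe_le_coe_iff]
  have h1 := hA y hy.1 hy.2
  have e : (1 - (K - 1 - c') / (K + 1)) * K - (K - 1 - c') / (K + 1) = c' + 1 := by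
    field_simp; ring
  rw [← hK, e] at h1
  simp only [coe_normSeminorm]
  linarith

end JT

/-- Growth of an asymptotically uniformly convex norm along asymptotic directions. -/
theorem auc_growth {X : Type} [NormedAddCommGroup X] [NormedSpace ℝ X] (N : Seminorm ℝ X) {t : ℝ}
    (ht : 0 < t) (h : 0 < aucModulus N t) :
    ∃ δ : ℝ, 0 < δ ∧ ∀ x, 0 < N x → ∃ F ∈ Cof X, ∀ y ∈ F, t * N x ≤ N y →
      (1 + δ) * N x ≤ N (x + y) := by
  obtain ⟨δ, hδ1, hδ2⟩ := EReal.lt_iff_exists_real_btwn.1 h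
  have hδ : 0 < δ := by exact_mod_cast hδ1
  refine ⟨δ, hδ, fun x hx => ?_⟩
  have hx1 : N ((N x)⁻¹ • x) = 1 := by
    rw [map_smul_eq_mul, Real.norm_eq_abs, abs_of_pos (inv_pos.2 hx), inv_mul_cancel₀ hx.ne']
  have h1 := hδ2.trans_le (iInf₂_le (f := fun (x : X) (_ : x ∈ {x : X | N x = 1}) =>
    ⨆ F ∈ Cof X, ⨅ y ∈ {y : X | y ∈ F ∧ N y = 1}, ((N (x + t • y) - 1 : ℝ) : EReal))
      ((N x)⁻¹ • x) hx1)
  obtain ⟨F, hF⟩ := lt_iSup_iff.1 h1
  obtain ⟨hFc, hF⟩ := lt_iSup_iff.1 hF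
  refine ⟨F, hFc, fun y hy hyx => ?_⟩
  have hy0 : 0 < N y := (mul_pos ht hx).trans_le hyx
  have hy1 : N ((N y)⁻¹ • y) = 1 := by
    rw [map_smul_eq_mul, Real.norm_eq_abs, abs_of_pos (inv_pos.2 hy0), inv_mul_cancel₀ hy0.ne']
  have h2 := hF.trans_le (iInf₂_le (f := fun (y : X) (_ : y ∈ {y : X | y ∈ F ∧ N y = 1}) =>
    ((N ((N x)⁻¹ • x + t • y) - 1 : ℝ) : EReal)) ((N y)⁻¹ • y) ⟨F.smul_mem _ hy, hy1⟩)
  rw [EReal.coe_lt_coe_iff] at h2
  set l := t * N x / N y with hl
  have hl0 : 0 < l := by positivity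
  have hl1 : l ≤ 1 := (div_le_one hy0).2 hyx
  have e1 : N x • ((N x)⁻¹ • x + t • (N y)⁻¹ • y) = (1 - l) • x + l • (x + y) := by
    rw [smul_add, smul_smul, mul_inv_cancel₀ hx.ne', one_smul, smul_smul, smul_smul, smul_add,
      ← add_assoc, ← add_smul, sub_add_cancel, one_smul, hl]
    congr 2
    field_simp
  have h3 : N (N x • ((N x)⁻¹ • x + t • (N y)⁻¹ • y)) ≤ (1 - l) * N x + l * N (x + y) := by
    rw [e1]
    refine (map_add_le_add N _ _).trans (le_of_eq ?_)
    rw [map_smul_eq_mul, map_smul_eq_mul, Real.norm_eq_abs, Real.norm_eq_abs,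
      abs_of_nonneg (sub_nonneg.2 hl1), abs_of_pos hl0]
  rw [map_smul_eq_mul, Real.norm_eq_abs, abs_of_pos hx] at h3
  have h4 : N x * (1 + δ) ≤ N x * N ((N x)⁻¹ • x + t • (N y)⁻¹ • y) :=
    mul_le_mul_of_nonneg_left (by linarith) hx.le
  refine le_of_mul_le_mul_left ?_ hl0
  have h5 : l * (δ * N x) ≤ δ * N x := mul_le_of_le_one_left (by positivity) hl1
  nlinarith

theorem auc_of_finiteDimensional {X : Type} [NormedAddCommGroup X] [NormedSpace ℝ X]
    [FiniteDimensional ℝ X] : AUCRenormable X := by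
  refine ⟨normSeminorm ℝ X, ⟨1, 1, one_pos, one_pos, fun x => by simp⟩, fun t _ => ?_⟩
  refine lt_of_lt_of_le EReal.zero_lt_top (le_iInf₂ fun x _ => ?_)
  refine le_iSup₂_of_le (⊥ : Submodule ℝ X) ⟨by simp, inferInstance⟩ (le_iInf₂ fun y hy => ?_)
  have h1 : y = 0 := hy.1
  have h2 : ‖y‖ = 1 := hy.2
  rw [h1, norm_zero] at h2
  exact absurd h2 zero_ne_one

namespace JT

variable {T : Type} [PartialOrder T] [LocallyFiniteOrderBot T] [Forest T]

/-- Above `p` there is a full countably branching tree of height `k`. -/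
def Full : ℕ → T → Prop
  | 0, _ => True
  | k + 1, p => ∃ c : ℕ → T, Function.Injective c ∧ ∀ m, Iio (c m) = Iic p ∧ Full k (c m)

theorem isSeg_Iic (p : T) : IsSeg (Iic p) :=
  ⟨fun _ ha _ hb => Forest.chain (mem_Iic.1 ha) (mem_Iic.1 hb),
    fun _ _ _ hb _ _ h2 => mem_Iic.2 (h2.trans (mem_Iic.1 hb))⟩

omit [LocallyFiniteOrderBot T] [Forest T] in
theorem crd_weakly_null (c : ℕ → T) (hc : Function.Injective c)
    (f : StrongDual ℝ (StrongDual ℝ (JT T))) : Tendsto (fun m => f (crd (c m))) atTop (𝓝 0) := by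
  classical
  have hs : Summable fun m => f (crd (c m)) ^ 2 := by
    refine summable_of_sum_le (c := ‖f‖ ^ 2) (fun _ => sq_nonneg _) fun s => ?_
    have := sum_crd_sq_le f (s.image c)
    rwa [sum_image hc.injOn] at this
  have h1 := hs.tendsto_atTop_zero
  have h2 := h1.sqrt
  simp only [Real.sqrt_sq_eq_abs, Real.sqrt_zero] at h2
  exact (tendsto_zero_iff_abs_tendsto_zero _).2 h2

theorem not_auc (hT : ∀ k, ∃ p : T, Full k p) : ¬ AUCRenormable (StrongDual ℝ (JT T)) := by
  rintro ⟨N, ⟨a, b, ha, hb, hN⟩, hauc⟩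
  have ht : 0 < a / (2 * b) := by positivity
  obtain ⟨δ, hδ, hg⟩ := auc_growth N ht (hauc _ ht)
  have hnorm : ∀ p : T, ‖seg (Iic p)‖ = 1 := fun p => norm_seg (isSeg_Iic p) nonempty_Iic
  have hlo : ∀ p : T, a ≤ N (seg (Iic p)) := fun p => by
    have := (hN (seg (Iic p))).1; rwa [hnorm, mul_one] at this
  have hup : ∀ p : T, N (seg (Iic p)) ≤ b := fun p => by
    have := (hN (seg (Iic p))).2; rwa [hnorm, mul_one] at this
  have step : ∀ k, ∀ p : T, Full k p → ∃ q : T, N (seg (Iic p)) + k * (δ * a / 2) ≤ N (seg (Iic q)) := by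
    intro k
    induction k with
    | zero => exact fun p _ => ⟨p, by simp⟩
    | succ k ih =>
      rintro p ⟨c, hc, hcm⟩
      obtain ⟨F, hF, hFy⟩ := hg (seg (Iic p)) (ha.trans_le (hlo p))
      have := hF.2
      have hη : 0 < min (1 / 2 : ℝ) (δ * a / (2 * b)) := lt_min (by norm_num) (by positivity)
      obtain ⟨m, y, hy, hmy⟩ := exists_near F hF.1 (fun m => crd (c m)) (crd_weakly_null c hc) hη
      have hm1 := hmy.trans_le (min_le_left _ _)
      have hm2 := hmy.trans_le (min_le_right _ _)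
      have hcn : ‖crd (c m)‖ = 1 := norm_seg (isSeg_singleton _) (singleton_nonempty _)
      have hy1 : 1 / 2 ≤ ‖y‖ := by
        have := norm_sub_norm_le (crd (c m)) y
        linarith
      have hy2 : a / (2 * b) * N (seg (Iic p)) ≤ N y := by
        have e1 := (hN y).1
        have e2 := mul_le_mul_of_nonneg_left (hup p) ht.le
        have e3 : a / (2 * b) * b = a * (1 / 2) := by field_simp
        have e4 := mul_le_mul_of_nonneg_left hy1 ha.le
        linarith
      have h1 := hFy y hy hy2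
      have e : seg (Iic (c m)) = seg (Iic p) + crd (c m) := by
        ext u
        simp only [seg_apply, add_apply, crd_apply]
        rw [sum_Iic_eq, (hcm m).1, add_comm]
      have h2 : N (seg (Iic p) + y) ≤ N (seg (Iic (c m))) + N (crd (c m) - y) := by
        have : seg (Iic p) + y = seg (Iic (c m)) - (crd (c m) - y) := by rw [e]; abel
        rw [this]
        exact map_sub_le_add N _ _
      have h3 : N (crd (c m) - y) ≤ δ * a / 2 := by
        have e1 := (hN (crd (c m) - y)).2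
        have e2 := mul_le_mul_of_nonneg_left hm2.le hb.le
        have e3 : b * (δ * a / (2 * b)) = δ * a / 2 := by field_simp
        linarith
      obtain ⟨q, hq⟩ := ih (c m) (hcm m).2
      refine ⟨q, ?_⟩
      have h4 := mul_le_mul_of_nonneg_left (hlo p) hδ.le
      push_cast
      nlinarith
  obtain ⟨k, hk⟩ := exists_nat_gt (b / (δ * a / 2))
  obtain ⟨p, hp⟩ := hT k
  obtain ⟨q, hq⟩ := step k p hp
  rw [div_lt_iff₀ (by positivity)] at hk
  have := hup q
  have := hlo p
  linarith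

end JT

/-- The nodes of the forest of countably branching trees of finite height. -/
def Node : Type := {p : ℕ × List ℕ // p.2.length ≤ p.1}

namespace Node

instance : Countable Node := inferInstanceAs (Countable {p : ℕ × List ℕ // p.2.length ≤ p.1})

instance : PartialOrder Node where
  le p q := p.1.1 = q.1.1 ∧ p.1.2 <:+ q.1.2
  le_refl p := ⟨rfl, List.suffix_rfl⟩
  le_trans p q r h1 h2 := ⟨h1.1.trans h2.1, h1.2.trans h2.2⟩
  le_antisymm p q h1 h2 := Subtype.ext (Prod.ext h1.1 (h1.2.sublist.antisymm h2.2.sublist))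

theorem le_def {p q : Node} : p ≤ q ↔ p.1.1 = q.1.1 ∧ p.1.2 <:+ q.1.2 := Iff.rfl

theorem len_injOn (q : Node) : Set.InjOn (fun p : Node => p.1.2.length) (Set.Iic q) := by
  intro a ha b hb hab
  have ha' : a ≤ q := ha
  have hb' : b ≤ q := hb
  refine Subtype.ext (Prod.ext (ha'.1.trans hb'.1.symm) ?_)
  exact (List.suffix_of_suffix_length_le ha'.2 hb'.2 (le_of_eq hab)).eq_of_length hab

theorem len_mapsTo (q : Node) : Set.MapsTo (fun p : Node => p.1.2.length) (Set.Iic q)
    (Finset.range (q.1.1 + 1)) := by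
  intro a ha
  have ha' : a ≤ q := ha
  have := a.2
  have h2 := ha'.1
  simp only [coe_range, Set.mem_Iio]
  omega

theorem finite_Iic (q : Node) : (Set.Iic q).Finite :=
  Set.Finite.of_finite_image ((Finset.range (q.1.1 + 1)).finite_toSet.subset
    (len_mapsTo q).image_subset) (len_injOn q)

open Classical in
noncomputable instance : LocallyFiniteOrderBot Node :=
  LocallyFiniteOrderBot.ofIic Node (fun q => (finite_Iic q).toFinset) fun q x => by simp

noncomputable instance : Forest Node where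
  chain {a b c} h1 h2 := by
    rcases List.suffix_or_suffix_of_suffix h1.2 h2.2 with h | h
    · exact Or.inl ⟨h1.1.trans h2.1.symm, h⟩
    · exact Or.inr ⟨h2.1.trans h1.1.symm, h⟩
  lev p := p.1.1
  lev_eq h := h.1
  card_le q := by
    have := card_le_card_of_injOn (s := Iic q) (t := Finset.range (q.1.1 + 1))
      (fun p : Node => p.1.2.length) (by simpa using len_mapsTo q) (by simpa using len_injOn q)
    simpa using this

/-- A child of a node. -/
def child (p : Node) (hp : p.1.2.length + 1 ≤ p.1.1) (m : ℕ) : Node :=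
  ⟨(p.1.1, m :: p.1.2), hp⟩

theorem Iio_child (p : Node) (hp : p.1.2.length + 1 ≤ p.1.1) (m : ℕ) :
    Iio (child p hp m) = Iic p := by
  ext r
  rw [mem_Iio, mem_Iic, lt_iff_le_and_ne, le_def, le_def]
  constructor
  · rintro ⟨⟨h1, h2⟩, h3⟩
    rcases List.suffix_cons_iff.1 h2 with h | h
    · exact absurd (Subtype.ext (Prod.ext h1 h)) h3
    · exact ⟨h1, h⟩
  · rintro ⟨h1, h2⟩
    refine ⟨⟨h1, List.suffix_cons_iff.2 (Or.inr h2)⟩, fun h => ?_⟩
    have h3 := h2.length_le
    rw [h] at h3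
    have h4 : (child p hp m).1.2.length = p.1.2.length + 1 := rfl
    omega

theorem full (k : ℕ) : ∀ p : Node, p.1.2.length + k ≤ p.1.1 → JT.Full k p := by
  induction k with
  | zero => exact fun _ _ => trivial
  | succ k ih =>
    intro p hp
    refine ⟨child p (by omega), fun m m' h => ?_, fun m => ⟨Iio_child _ _ _, ih _ ?_⟩⟩
    · have h1 : m :: p.1.2 = m' :: p.1.2 := congrArg (fun q : Node => q.1.2) h
      exact (List.cons.inj h1).1
    · show p.1.2.length + 1 + k ≤ p.1.1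
      omega

theorem exists_full (k : ℕ) : ∃ p : Node, JT.Full k p :=
  ⟨⟨(k, []), by simp⟩, full k _ (by simp)⟩

end Node

theorem main : ∃ (X : Type) (_ : NormedAddCommGroup X) (_ : NormedSpace ℝ X),
    CompleteSpace X ∧ TopologicalSpace.SeparableSpace X ∧ ¬ FiniteDimensional ℝ X ∧
    Function.Surjective (NormedSpace.inclusionInDoubleDual ℝ X) ∧
    (∀ t : ℝ, 0 < t → ((√(1 + t ^ 2 / 16) - 1 : ℝ) : EReal) ≤ amucModulus (normSeminorm ℝ X) t) ∧
    AMUCRenormable X ∧ ¬ AUCRenormable X := by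
  have hn := JT.not_auc Node.exists_full
  refine ⟨StrongDual ℝ (JT Node), inferInstance, inferInstance, inferInstance, JT.separable,
    fun h => hn auc_of_finiteDimensional, JT.reflexive, fun t ht => JT.amuc_bound ht,
    ⟨normSeminorm ℝ _, ⟨1, 1, one_pos, one_pos, fun x => by simp⟩, fun t ht => ?_⟩, hn⟩
  refine lt_of_lt_of_le ?_ (JT.amuc_bound ht)
  have : (1 : ℝ) < √(1 + t ^ 2 / 16) := Real.lt_sqrt_of_sq_lt (by nlinarith [pow_pos ht 2])
  exact_mod_cast sub_pos.2 this

end Vale.Agent.P069
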